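import Mathlib

namespace Vale.Agent.Results.P064.StarCounts

open Finset SimpleGraph

/-- The number of copies of a fixed graph is monotone in the host graph. -/
lemma copyCount_mono {V W : Type*} [Fintype V] {G₁ G₂ : SimpleGraph V} (h : G₁ ≤ G₂)
    (K : SimpleGraph W) : G₁.copyCount K ≤ G₂.copyCount K := by
  classical
  rw [copyCount, copyCount]
  let ι : G₁.Subgraph → G₂.Subgraph := fun G' =>
    { verts := G'.verts, Adj := G'.Adj, adj_sub := fun hab => h (G'.adj_sub hab),
      edge_vert := fun hab => G'.edge_vert hab, symm := G'.symm }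
  apply Finset.card_le_card_of_injOn ι
  · intro G' hG'
    simp only [Finset.coe_filter, Finset.mem_univ, true_and, Set.mem_ofPred_eq] at hG' ⊢
    exact hG'
  · intro A _ B _ hAB
    have h1 : (ι A).verts = (ι B).verts := congrArg Subgraph.verts hAB
    have h2 : (ι A).Adj = (ι B).Adj := congrArg Subgraph.Adj hAB
    exact Subgraph.ext h1 h2

/-- The subgraph of `H` formed by the edges of `H` joining `p.1` to a point of `p.2`. -/
def starSub {n : ℕ} (H : SimpleGraph (Fin n)) (p : (_ : Fin n) × Finset (Fin n)) : H.Subgraph where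
  verts := insert p.1 (p.2 : Set (Fin n))
  Adj u w := H.Adj u w ∧ ((u = p.1 ∧ w ∈ p.2) ∨ (w = p.1 ∧ u ∈ p.2))
  adj_sub h := h.1
  edge_vert := by
    rintro u w ⟨_, (⟨rfl, _⟩ | ⟨_, hu⟩)⟩
    · exact Set.mem_insert _ _
    · exact Set.mem_insert_of_mem _ hu
  symm := ⟨fun _ _ h => ⟨h.1.symm, h.2.symm⟩⟩

/-- Copies of the star with `m` leaves in `H` are at most the sum of `choose (deg v) m`. -/
lemma star_copyCount_le {n : ℕ} (H : SimpleGraph (Fin n)) [DecidableRel H.Adj] (m : ℕ) :
    H.copyCount (completeBipartiteGraph (Fin 1) (Fin m))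
      ≤ ∑ v : Fin n, (H.degree v).choose m := by
  classical
  rw [copyCount]
  have hcard : ((Finset.univ : Finset (Fin n)).sigma
      (fun v => (H.neighborFinset v).powersetCard m)).card
      = ∑ v : Fin n, (H.degree v).choose m := by
    rw [Finset.card_sigma]
    apply Finset.sum_congr rfl
    intro v _
    rw [Finset.card_powersetCard, card_neighborFinset_eq_degree]
  rw [← hcard]
  refine (Finset.card_le_card ?_).trans (Finset.card_image_le (f := starSub H))
  intro G' hG'
  rw [Finset.mem_filter] at hG'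
  obtain ⟨φ⟩ := hG'.2
  rw [Finset.mem_image]
  have hψinj : Function.Injective (fun a => ((φ a : G'.verts) : Fin n)) :=
    Subtype.val_injective.comp φ.injective
  have hadj : ∀ a b, G'.Adj (φ a : Fin n) (φ b : Fin n)
      ↔ (completeBipartiteGraph (Fin 1) (Fin m)).Adj a b := by
    intro a b
    rw [← φ.map_rel_iff (a := a) (b := b)]
    rfl
  refine ⟨⟨(φ (Sum.inl 0) : Fin n),
    Finset.univ.image (fun i : Fin m => ((φ (Sum.inr i) : G'.verts) : Fin n))⟩, ?_, ?_⟩
  · rw [Finset.mem_sigma]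
    refine ⟨Finset.mem_univ _, ?_⟩
    rw [Finset.mem_powersetCard]
    constructor
    · intro u hu
      rw [Finset.mem_image] at hu
      obtain ⟨i, _, rfl⟩ := hu
      rw [mem_neighborFinset]
      apply G'.adj_sub
      rw [hadj]
      simp [completeBipartiteGraph]
    · rw [Finset.card_image_of_injective, Finset.card_univ, Fintype.card_fin]
      intro i j hij
      have := hψinj hij
      exact Sum.inr_injective this
  · apply Subgraph.ext
    · ext u
      simp only [starSub, Set.mem_insert_iff, Finset.mem_coe, Finset.mem_image, Finset.mem_univ,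
        true_and]
      constructor
      · rintro (rfl | ⟨i, rfl⟩)
        · exact (φ (Sum.inl 0)).2
        · exact (φ (Sum.inr i)).2
      · intro hu
        obtain ⟨a, ha⟩ := φ.surjective ⟨u, hu⟩
        rcases a with z | i
        · left
          have hz : z = 0 := Subsingleton.elim _ _
          subst hz
          rw [ha]
        · right
          exact ⟨i, by rw [ha]⟩
    · funext u w
      apply propext
      simp only [starSub, Finset.mem_image, Finset.mem_univ, true_and]
      constructor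
      · rintro ⟨_, (⟨rfl, i, rfl⟩ | ⟨rfl, i, rfl⟩)⟩
        · rw [hadj]; simp [completeBipartiteGraph]
        · rw [hadj]; simp [completeBipartiteGraph]
      · intro huw
        refine ⟨G'.adj_sub huw, ?_⟩
        obtain ⟨a, ha⟩ := φ.surjective ⟨u, G'.edge_vert huw⟩
        obtain ⟨b, hb⟩ := φ.surjective ⟨w, G'.edge_vert huw.symm⟩
        have hu : ((φ a : G'.verts) : Fin n) = u := by rw [ha]
        have hw : ((φ b : G'.verts) : Fin n) = w := by rw [hb]
        rw [← hu, ← hw, hadj] at huw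
        rcases a with z | i <;> rcases b with z' | j
        · simp [completeBipartiteGraph] at huw
        · left
          have hz : z = 0 := Subsingleton.elim _ _
          subst hz
          exact ⟨hu.symm, j, hw⟩
        · right
          have hz : z' = 0 := Subsingleton.elim _ _
          subst hz
          exact ⟨hw.symm, i, hu⟩
        · simp [completeBipartiteGraph] at huw


/-- A copy of the star with `m` leaves in the complete graph on `Fin n`, placed on a given
set of `m + 1` vertices. -/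
noncomputable def starCopy {n m : ℕ} (A : Finset (Fin n)) (h : A.card = m + 1) :
    Copy (completeBipartiteGraph (Fin 1) (Fin m)) (⊤ : SimpleGraph (Fin n)) where
  toHom :=
    { toFun := fun a => A.orderEmbOfFin h (((Equiv.sumComm _ _).trans finSumFinEquiv) a)
      map_rel' := by
        intro a b hab
        rw [top_adj]
        intro heq
        have h1 := (A.orderEmbOfFin h).injective heq
        have h2 := ((Equiv.sumComm (Fin 1) (Fin m)).trans finSumFinEquiv).injective h1
        exact hab.ne h2 }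
  injective' := by
    intro a b heq
    have h1 := (A.orderEmbOfFin h).injective heq
    exact ((Equiv.sumComm (Fin 1) (Fin m)).trans finSumFinEquiv).injective h1

lemma starCopy_verts {n m : ℕ} (A : Finset (Fin n)) (h : A.card = m + 1) :
    (starCopy A h).toSubgraph.verts = (A : Set (Fin n)) := by
  rw [Copy.toSubgraph, Subgraph.map_verts, Subgraph.verts_top, Set.image_univ]
  have h2 : Set.range (A.orderEmbOfFin h) = (A : Set (Fin n)) := Finset.range_orderEmbOfFin A h
  rw [← h2]
  ext u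
  constructor
  · rintro ⟨a, rfl⟩
    exact ⟨_, rfl⟩
  · rintro ⟨i, rfl⟩
    refine ⟨((Equiv.sumComm (Fin 1) (Fin m)).trans finSumFinEquiv).symm i, ?_⟩
    show A.orderEmbOfFin h (((Equiv.sumComm _ _).trans finSumFinEquiv)
      (((Equiv.sumComm (Fin 1) (Fin m)).trans finSumFinEquiv).symm i)) = _
    rw [Equiv.apply_symm_apply]

/-- The complete graph on `n` vertices contains at least `choose n (m+1)` copies of the star
with `m` leaves. -/
lemma choose_le_copyCount_top (n m : ℕ) :
    n.choose (m + 1)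
      ≤ (⊤ : SimpleGraph (Fin n)).copyCount (completeBipartiteGraph (Fin 1) (Fin m)) := by
  classical
  rw [copyCount]
  have hc : ((Finset.univ : Finset (Fin n)).powersetCard (m + 1)).card = n.choose (m + 1) := by
    rw [Finset.card_powersetCard, Finset.card_univ, Fintype.card_fin]
  rw [← hc]
  apply Finset.card_le_card_of_injOn
    (fun A => if h : A.card = m + 1 then (starCopy A h).toSubgraph else ⊥)
  · intro A hA
    have hA' : A.card = m + 1 := (Finset.mem_powersetCard.mp hA).2
    simp only [Finset.coe_filter, Finset.mem_univ, true_and, Set.mem_ofPred_eq, dif_pos hA']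
    exact ⟨(starCopy A hA').isoToSubgraph⟩
  · intro A hA B hB hAB
    have hA' : A.card = m + 1 := (Finset.mem_powersetCard.mp hA).2
    have hB' : B.card = m + 1 := (Finset.mem_powersetCard.mp hB).2
    simp only [dif_pos hA', dif_pos hB'] at hAB
    have := congrArg Subgraph.verts hAB
    rw [starCopy_verts, starCopy_verts] at this
    exact Finset.coe_injective this

/-- If a graph `F` on `Fin n` has a vertex cover `C`, the number of its copies in the
complete graph is at most `choose n |C| * choose (|C| n) e(F)`. -/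
lemma copyCount_top_le_of_cover {n : ℕ} (F : SimpleGraph (Fin n)) [DecidableRel F.Adj]
    (C : Finset (Fin n)) (hcover : ∀ a b, F.Adj a b → a ∈ C ∨ b ∈ C) :
    (⊤ : SimpleGraph (Fin n)).copyCount F
      ≤ n.choose C.card * (C.card * n).choose F.edgeFinset.card := by
  classical
  rw [copyCount]
  set k := C.card with hk
  set e := F.edgeFinset.card with he
  let I : Finset (Fin n) → Finset (Sym2 (Fin n)) :=
    fun C' => (C' ×ˢ (Finset.univ : Finset (Fin n))).image (fun p => s(p.1, p.2))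
  have hI : ∀ C' : Finset (Fin n), C'.card = k → (I C').card ≤ k * n := by
    intro C' hC'
    refine Finset.card_image_le.trans ?_
    rw [Finset.card_product, hC', Finset.card_univ, Fintype.card_fin]
  let T : Finset (Finset (Sym2 (Fin n))) :=
    ((Finset.univ : Finset (Fin n)).powersetCard k).biUnion (fun C' => (I C').powersetCard e)
  have hT : T.card ≤ n.choose k * (k * n).choose e := by
    refine Finset.card_biUnion_le.trans ?_
    calc ∑ C' ∈ (Finset.univ : Finset (Fin n)).powersetCard k, ((I C').powersetCard e).card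
        ≤ ∑ C' ∈ (Finset.univ : Finset (Fin n)).powersetCard k, (k * n).choose e := by
          apply Finset.sum_le_sum
          intro C' hC'
          rw [Finset.card_powersetCard]
          exact Nat.choose_le_choose _ (hI C' (Finset.mem_powersetCard.mp hC').2)
      _ = n.choose k * (k * n).choose e := by
          rw [Finset.sum_const, Finset.card_powersetCard, Finset.card_univ, Fintype.card_fin,
            smul_eq_mul]
  refine le_trans ?_ hT
  -- the edge finset of a subgraph
  let edges : (⊤ : SimpleGraph (Fin n)).Subgraph → Finset (Sym2 (Fin n)) :=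
    fun G' => Finset.univ.filter (fun z => z ∈ G'.edgeSet)
  -- facts for a member of the filter
  have key : ∀ G' : (⊤ : SimpleGraph (Fin n)).Subgraph, Nonempty (F ≃g G'.coe) →
      G'.verts = Set.univ ∧ edges G' ∈ T := by
    intro G' hG'
    obtain ⟨φ⟩ := hG'
    have hverts : G'.verts = Set.univ :=
      (set_fintype_card_eq_univ_iff _).1 (Fintype.card_congr φ.toEquiv.symm)
    refine ⟨hverts, ?_⟩
    have hψinj : Function.Injective (fun a => ((φ a : G'.verts) : Fin n)) :=
      Subtype.val_injective.comp φ.injective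
    have hadj : ∀ a b, G'.Adj (φ a : Fin n) (φ b : Fin n) ↔ F.Adj a b := by
      intro a b
      rw [← φ.map_rel_iff (a := a) (b := b)]
      rfl
    have hedges : edges G' = F.edgeFinset.image (Sym2.map (fun a => ((φ a : G'.verts) : Fin n))) := by
      ext z
      induction z using Sym2.ind with
      | _ u w =>
        simp only [edges, Finset.mem_filter, Finset.mem_univ, true_and, Subgraph.mem_edgeSet,
          Finset.mem_image]
        constructor
        · intro huw
          obtain ⟨a, ha⟩ := φ.surjective ⟨u, G'.edge_vert huw⟩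
          obtain ⟨b, hb⟩ := φ.surjective ⟨w, G'.edge_vert huw.symm⟩
          have hu : ((φ a : G'.verts) : Fin n) = u := by rw [ha]
          have hw : ((φ b : G'.verts) : Fin n) = w := by rw [hb]
          refine ⟨s(a, b), ?_, ?_⟩
          · rw [mem_edgeFinset, mem_edgeSet, ← hadj, hu, hw]
            exact huw
          · rw [Sym2.map_mk, hu, hw]
        · rintro ⟨z', hz', hzz⟩
          induction z' using Sym2.ind with
          | _ a b =>
            rw [mem_edgeFinset, mem_edgeSet, ← hadj] at hz'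
            rw [Sym2.map_mk, Sym2.eq_iff] at hzz
            rcases hzz with ⟨h1, h2⟩ | ⟨h1, h2⟩
            · rw [← h1, ← h2]; exact hz'
            · rw [← h1, ← h2]; exact hz'.symm
    rw [Finset.mem_biUnion]
    refine ⟨C.image (fun a => ((φ a : G'.verts) : Fin n)), ?_, ?_⟩
    · rw [Finset.mem_powersetCard]
      exact ⟨Finset.subset_univ _, by rw [Finset.card_image_of_injective _ hψinj]⟩
    · rw [Finset.mem_powersetCard]
      constructor
      · rw [hedges]
        intro z hz
        rw [Finset.mem_image] at hz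
        obtain ⟨z', hz', rfl⟩ := hz
        induction z' using Sym2.ind with
        | _ a b =>
          rw [mem_edgeFinset, mem_edgeSet] at hz'
          rw [Sym2.map_mk]
          simp only [I, Finset.mem_image, Finset.mem_product, Finset.mem_univ, and_true]
          rcases hcover a b hz' with ha | hb
          · exact ⟨(((φ a : G'.verts) : Fin n), ((φ b : G'.verts) : Fin n)), ⟨a, ha, rfl⟩, rfl⟩
          · exact ⟨(((φ b : G'.verts) : Fin n), ((φ a : G'.verts) : Fin n)), ⟨b, hb, rfl⟩,
              Sym2.eq_swap⟩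
      · rw [hedges, Finset.card_image_of_injective _ (Sym2.map.injective hψinj)]
  apply Finset.card_le_card_of_injOn edges
  · intro G' hG'
    simp only [Finset.coe_filter, Finset.mem_univ, true_and, Set.mem_ofPred_eq] at hG'
    exact (key G' hG').2
  · intro A hA B hB hAB
    simp only [Finset.coe_filter, Finset.mem_univ, true_and, Set.mem_ofPred_eq] at hA hB
    apply Subgraph.ext
    · rw [(key A hA).1, (key B hB).1]
    · funext u w
      apply propext
      have h1 : s(u, w) ∈ edges A ↔ A.Adj u w := by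
        simp only [edges, Finset.mem_filter, Finset.mem_univ, true_and, Subgraph.mem_edgeSet]
      have h2 : s(u, w) ∈ edges B ↔ B.Adj u w := by
        simp only [edges, Finset.mem_filter, Finset.mem_univ, true_and, Subgraph.mem_edgeSet]
      rw [← h1, ← h2, hAB]


lemma pow_self_le (k : ℕ) : (k : ℝ) ^ k ≤ 3 ^ k * k.factorial := by
  have h := Real.pow_div_factorial_le_exp (k : ℝ) (Nat.cast_nonneg k) k
  have h3 : Real.exp (k : ℝ) ≤ 3 ^ k := by
    have h4 : Real.exp (k : ℝ) = Real.exp 1 ^ k := by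
      rw [← Real.exp_nat_mul, mul_one]
    rw [h4]
    exact pow_le_pow_left₀ (Real.exp_pos 1).le Real.exp_one_lt_three.le k
  have hpos : (0 : ℝ) < k.factorial := by exact_mod_cast Nat.factorial_pos k
  have h5 := h.trans h3
  rw [div_le_iff₀ hpos] at h5
  exact h5

lemma choose_mul_pow_le (a j : ℕ) (hj : 1 ≤ j) (y : ℝ) (hy : 0 ≤ y) :
    (a.choose j : ℝ) * y ^ j ≤ (3 * a * y / j) ^ j := by
  have h1 : (a.choose j : ℝ) ≤ (a : ℝ) ^ j / j.factorial := Nat.choose_le_pow_div j a
  have hfpos : (0 : ℝ) < j.factorial := by exact_mod_cast Nat.factorial_pos j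
  have hjpos : (0 : ℝ) < j := by exact_mod_cast hj
  have hjj : (0 : ℝ) < (j : ℝ) ^ j := pow_pos hjpos j
  have h2 := pow_self_le j
  have hay : (0 : ℝ) ≤ ((a : ℝ) * y) ^ j := pow_nonneg (mul_nonneg (Nat.cast_nonneg a) hy) j
  calc (a.choose j : ℝ) * y ^ j ≤ (a : ℝ) ^ j / j.factorial * y ^ j :=
        mul_le_mul_of_nonneg_right h1 (pow_nonneg hy j)
    _ = ((a : ℝ) * y) ^ j / j.factorial := by rw [mul_pow]; ring
    _ ≤ ((a : ℝ) * y) ^ j * 3 ^ j / (j : ℝ) ^ j := by
        rw [div_le_div_iff₀ hfpos hjj]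
        nlinarith
    _ = (3 * a * y / j) ^ j := by
        rw [div_pow, mul_pow, mul_pow, mul_pow]; ring

lemma core_real (n k e d : ℕ) (q : ℝ) (hq : 0 ≤ q) (hk : 1 ≤ k) (hd : 1 ≤ d)
    (he : k * d ≤ e) (hβ : 3 * (n : ℝ) * q ≤ d)
    (h : 1 ≤ (n.choose k : ℝ) * ((k * n).choose e : ℝ) * q ^ e) :
    (k : ℝ) ≤ 3 * n * (3 * n * q / d) ^ d := by
  have hkpos : (0 : ℝ) < k := by exact_mod_cast hk
  have hdpos : (0 : ℝ) < d := by exact_mod_cast hd
  have he1 : 1 ≤ e := le_trans (Nat.mul_pos hk hd) he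
  have hepos : (0 : ℝ) < e := by exact_mod_cast he1
  have hn0 : (0 : ℝ) ≤ n := Nat.cast_nonneg n
  have h1 : (n.choose k : ℝ) ≤ (3 * n / k) ^ k := by
    have := choose_mul_pow_le n k hk 1 zero_le_one
    simpa using this
  have h2 : ((k * n).choose e : ℝ) * q ^ e ≤ (3 * ((k * n : ℕ) : ℝ) * q / e) ^ e :=
    choose_mul_pow_le (k * n) e he1 q hq
  set β : ℝ := 3 * n * q / d with hβdef
  have hβ0 : 0 ≤ β := by positivity
  have hβ1 : β ≤ 1 := by
    rw [hβdef, div_le_one hdpos]; exact hβ
  have hB : 3 * ((k * n : ℕ) : ℝ) * q / e ≤ β := by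
    rw [hβdef, div_le_div_iff₀ hepos hdpos]
    push_cast
    have hke : (k : ℝ) * d ≤ e := by exact_mod_cast he
    have : 0 ≤ 3 * (n : ℝ) * q := by positivity
    nlinarith
  have hB0 : 0 ≤ 3 * ((k * n : ℕ) : ℝ) * q / e := by positivity
  have h3 : (3 * ((k * n : ℕ) : ℝ) * q / e) ^ e ≤ (β ^ d) ^ k := by
    calc (3 * ((k * n : ℕ) : ℝ) * q / e) ^ e ≤ β ^ e := pow_le_pow_left₀ hB0 hB e
      _ ≤ β ^ (k * d) := pow_le_pow_of_le_one hβ0 hβ1 he
      _ = (β ^ d) ^ k := by rw [mul_comm, pow_mul]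
  have hA0 : (0 : ℝ) ≤ 3 * n / k := by positivity
  have h4 : 1 ≤ (3 * n / k * β ^ d) ^ k := by
    calc (1 : ℝ) ≤ (n.choose k : ℝ) * ((k * n).choose e : ℝ) * q ^ e := h
      _ = (n.choose k : ℝ) * (((k * n).choose e : ℝ) * q ^ e) := by ring
      _ ≤ (3 * n / k) ^ k * (β ^ d) ^ k :=
          mul_le_mul h1 (h2.trans h3) (by positivity) (by positivity)
      _ = (3 * n / k * β ^ d) ^ k := by rw [mul_pow]
  have h5 : 1 ≤ 3 * n / k * β ^ d := by
    by_contra hcon
    rw [not_le] at hcon
    have : (3 * n / k * β ^ d) ^ k < 1 :=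
      pow_lt_one₀ (by positivity) hcon (by omega)
    linarith
  have h6 : 3 * (n : ℝ) / k * β ^ d = 3 * n * β ^ d / k := by ring
  rw [h6, le_div_iff₀ hkpos] at h5
  linarith


/-- The hypothesis of the theorem: every subgraph `F` of `H` has expected count at least one
in the random graph of density `q`. -/
def AllExpectedAtLeastOne {n : ℕ} (H : SimpleGraph (Fin n)) (q : ℝ) : Prop :=
  ∀ F : SimpleGraph (Fin n), F ≤ H →
    1 ≤ ((⊤ : SimpleGraph (Fin n)).copyCount F : ℝ) * q ^ F.edgeSet.ncard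

lemma degree_class_bound {n : ℕ} (H : SimpleGraph (Fin n)) [DecidableRel H.Adj] (q : ℝ)
    (hq0 : 0 ≤ q) (hyp : AllExpectedAtLeastOne H q)
    (d : ℕ) (hd : 1 ≤ d) (hβ : 3 * (n : ℝ) * q ≤ d) :
    (((Finset.univ : Finset (Fin n)).filter (fun v => H.degree v = d)).card : ℝ)
      ≤ (d + 1) * (3 * n * (3 * n * q / d) ^ d) := by
  classical
  set Ed := (Finset.univ : Finset (Fin n)).filter (fun v => H.degree v = d) with hEd
  let indep : Finset (Finset (Fin n)) :=
    Ed.powerset.filter (fun T => ∀ a ∈ T, ∀ b ∈ T, ¬ H.Adj a b)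
  have hne : indep.Nonempty := ⟨∅, by simp [indep]⟩
  obtain ⟨T, hT, hmax⟩ := Finset.exists_max_image indep Finset.card hne
  have hTsub : T ⊆ Ed := Finset.mem_powerset.mp (Finset.mem_filter.mp hT).1
  have hTind : ∀ a ∈ T, ∀ b ∈ T, ¬ H.Adj a b := (Finset.mem_filter.mp hT).2
  have hTdeg : ∀ u ∈ T, H.degree u = d := fun u hu => (Finset.mem_filter.mp (hTsub hu)).2
  set k := T.card with hk
  have hcov : Ed ⊆ T ∪ T.biUnion (fun u => H.neighborFinset u) := by
    intro v hv
    by_contra hcon
    rw [Finset.mem_union, not_or, Finset.mem_biUnion] at hcon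
    obtain ⟨hvT, hvN⟩ := hcon
    have hins : insert v T ∈ indep := by
      rw [Finset.mem_filter, Finset.mem_powerset]
      refine ⟨Finset.insert_subset hv hTsub, ?_⟩
      intro a ha b hb hab
      rw [Finset.mem_insert] at ha hb
      rcases ha with rfl | ha <;> rcases hb with rfl | hb
      · exact H.loopless.irrefl _ hab
      · exact hvN ⟨b, hb, by rw [mem_neighborFinset]; exact hab.symm⟩
      · exact hvN ⟨a, ha, by rw [mem_neighborFinset]; exact hab⟩
      · exact hTind a ha b hb hab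
    have h1 := hmax _ hins
    rw [Finset.card_insert_of_notMem hvT] at h1
    omega
  have hcard : Ed.card ≤ (d + 1) * k := by
    calc Ed.card ≤ (T ∪ T.biUnion (fun u => H.neighborFinset u)).card := Finset.card_le_card hcov
      _ ≤ T.card + (T.biUnion (fun u => H.neighborFinset u)).card := Finset.card_union_le _ _
      _ ≤ k + ∑ u ∈ T, (H.neighborFinset u).card := Nat.add_le_add_left Finset.card_biUnion_le _
      _ = k + ∑ u ∈ T, d := by
          congr 1
          apply Finset.sum_congr rfl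
          intro u hu
          rw [card_neighborFinset_eq_degree]
          exact hTdeg u hu
      _ = (d + 1) * k := by rw [Finset.sum_const, smul_eq_mul]; ring
  have hRHS0 : (0 : ℝ) ≤ 3 * n * (3 * n * q / d) ^ d := by positivity
  by_cases hk0 : k = 0
  · have : Ed.card = 0 := by
      have := hcard
      rw [hk0] at this
      omega
    rw [this]
    push_cast
    positivity
  have hk1 : 1 ≤ k := Nat.one_le_iff_ne_zero.mpr hk0
  -- the graph of all edges of `H` meeting `T`
  let F' : SimpleGraph (Fin n) :=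
    { Adj := fun a b => H.Adj a b ∧ (a ∈ T ∨ b ∈ T)
      symm := ⟨fun _ _ h => ⟨h.1.symm, h.2.symm⟩⟩
      loopless := ⟨fun a h => H.loopless.irrefl a h.1⟩ }
  have hF'le : F' ≤ H := fun a b h => h.1
  have hcount := copyCount_top_le_of_cover F' T (fun a b h => h.2)
  have hedge : k * d ≤ F'.edgeFinset.card := by
    have hsig : (T.sigma (fun u => H.neighborFinset u)).card = k * d := by
      rw [Finset.card_sigma]
      show ∑ u ∈ T, H.degree u = k * d
      rw [Finset.sum_congr rfl hTdeg, Finset.sum_const, smul_eq_mul]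
    rw [← hsig]
    apply Finset.card_le_card_of_injOn (fun p => s(p.1, p.2))
    · intro p hp
      rw [Finset.mem_coe, Finset.mem_sigma, mem_neighborFinset] at hp
      rw [Finset.mem_coe, mem_edgeFinset, mem_edgeSet]
      exact ⟨hp.2, Or.inl hp.1⟩
    · intro p hp p' hp' hpp
      rw [Finset.mem_coe, Finset.mem_sigma, mem_neighborFinset] at hp hp'
      rw [Sym2.eq_iff] at hpp
      rcases hpp with ⟨h1, h2⟩ | ⟨h1, h2⟩
      · exact Sigma.ext h1 (heq_of_eq h2)
      · exfalso
        apply hTind p.1 hp.1 p.2 (by rw [h2]; exact hp'.1)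
        exact hp.2
  have h1 := hyp F' hF'le
  have hnc : F'.edgeSet.ncard = F'.edgeFinset.card := by
    rw [edgeFinset, Set.ncard_eq_toFinset_card']
  rw [hnc] at h1
  have h2 : (1 : ℝ) ≤ (n.choose k : ℝ) * ((k * n).choose F'.edgeFinset.card : ℝ)
      * q ^ F'.edgeFinset.card := by
    refine h1.trans ?_
    apply mul_le_mul_of_nonneg_right _ (pow_nonneg hq0 _)
    exact_mod_cast hcount
  have h3 := core_real n k F'.edgeFinset.card d q hq0 hk1 hd hedge hβ h2
  calc (Ed.card : ℝ) ≤ ((d + 1) * k : ℕ) := by exact_mod_cast hcard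
    _ = (d + 1) * (k : ℝ) := by push_cast; ring
    _ ≤ (d + 1) * (3 * n * (3 * n * q / d) ^ d) :=
        mul_le_mul_of_nonneg_left h3 (by positivity)


lemma div_pow_le_choose (k : ℕ) (hk : 1 ≤ k) : ∀ n : ℕ, k ≤ n → ((n : ℝ) / k) ^ k ≤ n.choose k := by
  induction k, hk using Nat.le_induction with
  | base =>
    intro n _
    simp
  | succ k hk ih =>
    intro n hn
    obtain ⟨n', rfl⟩ : ∃ n', n = n' + 1 := ⟨n - 1, by omega⟩
    have hn' : k ≤ n' := by omega
    have h1 := ih n' hn'
    have h2 : ((n' + 1 : ℕ) : ℝ) * (n'.choose k : ℝ) = ((n' + 1).choose (k + 1) : ℝ) * ((k + 1 : ℕ) : ℝ) := by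
      exact_mod_cast Nat.add_one_mul_choose_eq n' k
    have hkpos : (0 : ℝ) < k := by exact_mod_cast hk
    have hk1pos : (0 : ℝ) < ((k + 1 : ℕ) : ℝ) := by positivity
    have h3 : ((n' + 1 : ℕ) : ℝ) / ((k + 1 : ℕ) : ℝ) ≤ (n' : ℝ) / k := by
      rw [div_le_div_iff₀ hk1pos hkpos]
      push_cast
      have : (k : ℝ) ≤ n' := by exact_mod_cast hn'
      nlinarith
    have h4 : (((n' + 1 : ℕ) : ℝ) / ((k + 1 : ℕ) : ℝ)) ^ k ≤ (n'.choose k : ℝ) :=
      (pow_le_pow_left₀ (by positivity) h3 k).trans h1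
    have h5 : ((n' + 1).choose (k + 1) : ℝ) = ((n' + 1 : ℕ) : ℝ) / ((k + 1 : ℕ) : ℝ) * (n'.choose k : ℝ) := by
      field_simp
      linarith
    rw [h5, pow_succ, mul_comm]
    exact mul_le_mul_of_nonneg_left h4 (by positivity)

lemma numA (m : ℕ) (hm : 1 ≤ m) : 2 * ((m : ℝ) + 1) ≤ 4 ^ m := by
  have h1 : m + 1 ≤ 2 ^ m := Nat.lt_two_pow_self
  have h2 : ((m : ℝ) + 1) ≤ 2 ^ m := by exact_mod_cast h1
  have h3 : (2 : ℝ) ≤ 2 ^ m := by
    calc (2 : ℝ) = 2 ^ 1 := by norm_num
      _ ≤ 2 ^ m := pow_le_pow_right₀ (by norm_num) hm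
  have h4 : (4 : ℝ) ^ m = 2 ^ m * 2 ^ m := by
    rw [← mul_pow]; norm_num
  rw [h4]
  nlinarith

lemma numB (m : ℕ) (hm : 1 ≤ m) : 12 * ((m : ℝ) + 1) ^ 2 * 9 ^ m ≤ 500 ^ m := by
  have h1 : m + 1 ≤ 2 ^ m := Nat.lt_two_pow_self
  have h2 : ((m : ℝ) + 1) ≤ 2 ^ m := by exact_mod_cast h1
  have h4 : (4 : ℝ) ^ m = 2 ^ m * 2 ^ m := by
    rw [← mul_pow]; norm_num
  have h5 : ((m : ℝ) + 1) ^ 2 ≤ 4 ^ m := by
    rw [h4]
    have : (0 : ℝ) ≤ (m : ℝ) + 1 := by positivity
    nlinarith
  have h6 : (12 : ℝ) ≤ 12 ^ m := by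
    calc (12 : ℝ) = 12 ^ 1 := by norm_num
      _ ≤ 12 ^ m := pow_le_pow_right₀ (by norm_num) hm
  have h7 : (12 : ℝ) ^ m * 4 ^ m * 9 ^ m = 432 ^ m := by
    rw [← mul_pow, ← mul_pow]; norm_num
  have h8 : (432 : ℝ) ^ m ≤ 500 ^ m := pow_le_pow_left₀ (by norm_num) (by norm_num) m
  have h9 : (0 : ℝ) < 9 ^ m := by positivity
  calc 12 * ((m : ℝ) + 1) ^ 2 * 9 ^ m ≤ 12 ^ m * 4 ^ m * 9 ^ m := by
        apply mul_le_mul_of_nonneg_right _ h9.le
        exact mul_le_mul h6 h5 (by positivity) (by positivity)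
    _ = 432 ^ m := h7
    _ ≤ 500 ^ m := h8

lemma caseA (n m d : ℕ) (x : ℝ) (hm : 1 ≤ m) (hn : 1 ≤ n) (hx : 0 ≤ x)
    (hA : 24 * (d : ℝ) ≤ 1000 * x) :
    (d.choose m : ℝ) ≤ (n / ((m : ℝ) + 1)) * (1000 * x / (2 * m)) ^ m / (2 * n) := by
  have hmpos : (0 : ℝ) < m := by exact_mod_cast hm
  have hnpos : (0 : ℝ) < n := by exact_mod_cast hn
  have h1 : (d.choose m : ℝ) ≤ (3 * d / m) ^ m := by
    have := choose_mul_pow_le d m hm 1 zero_le_one
    simpa using this
  have h2 : (3 * (d : ℝ) / m) ^ m ≤ (1000 * x / (8 * m)) ^ m := by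
    apply pow_le_pow_left₀ (by positivity)
    rw [div_le_div_iff₀ hmpos (by positivity)]
    nlinarith
  have h3 : (1000 * x / (8 * m)) ^ m = (1000 * x / (2 * m)) ^ m / 4 ^ m := by
    rw [← div_pow]
    congr 1
    field_simp
    ring
  have h4 := numA m hm
  have h5 : (0 : ℝ) ≤ (1000 * x / (2 * m)) ^ m := by positivity
  have h6 : (n / ((m : ℝ) + 1)) * (1000 * x / (2 * m)) ^ m / (2 * n)
      = (1000 * x / (2 * m)) ^ m / (2 * ((m : ℝ) + 1)) := by
    field_simp
  rw [h6]
  refine h1.trans (h2.trans ?_)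
  rw [h3]
  exact div_le_div_of_nonneg_left h5 (by positivity) h4

lemma caseB (n m j : ℕ) (x c : ℝ) (hm : 1 ≤ m) (hx : 0 ≤ x)
    (hB : 1000 * x < 24 * ((m + j : ℕ) : ℝ))
    (hc : c ≤ (((m + j : ℕ) : ℝ) + 1) * (3 * n * (3 * x / ((m + j : ℕ) : ℝ)) ^ (m + j))) :
    c * ((m + j).choose m : ℝ)
      ≤ (n / ((m : ℝ) + 1)) * (1000 * x / (2 * m)) ^ m / 4 * (1 / 2) ^ j := by
  have hmpos : (0 : ℝ) < m := by exact_mod_cast hm
  set D : ℝ := ((m + j : ℕ) : ℝ) with hD
  have hDpos : 0 < D := by
    rw [hD]; exact_mod_cast (by omega : 0 < m + j)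
  have hDeq : D = (m : ℝ) + j := by rw [hD]; push_cast; ring
  set β : ℝ := 3 * x / D with hβ
  have hβ0 : 0 ≤ β := by positivity
  have hβ8 : β ≤ 1 / 8 := by
    rw [hβ, div_le_iff₀ hDpos]
    linarith
  have h1 : ((m + j).choose m : ℝ) ≤ (3 * D / m) ^ m := by
    have h0 := choose_mul_pow_le (m + j) m hm 1 zero_le_one
    rw [one_pow, mul_one, mul_one] at h0
    exact h0
  have h2 : β ^ m * (3 * D / m) ^ m = 9 ^ m * (x / m) ^ m := by
    rw [← mul_pow, ← mul_pow]
    congr 1
    rw [hβ]
    field_simp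
    ring
  have hj2 : ((j : ℝ) + 1) ≤ 2 ^ j := by
    have : j + 1 ≤ 2 ^ j := Nat.lt_two_pow_self
    exact_mod_cast this
  have h3 : (D + 1) * β ^ j ≤ ((m : ℝ) + 1) * (1 / 2) ^ j := by
    have ha : D + 1 ≤ ((m : ℝ) + 1) * ((j : ℝ) + 1) := by
      rw [hDeq]
      have : (0 : ℝ) ≤ (m : ℝ) * j := by positivity
      nlinarith
    have hb : β ^ j ≤ (1 / 8) ^ j := pow_le_pow_left₀ hβ0 hβ8 j
    have hc' : ((j : ℝ) + 1) * (1 / 8 : ℝ) ^ j ≤ (1 / 2) ^ j := by
      have h8 : (1 / 8 : ℝ) ^ j = (1 / 2) ^ j * (1 / 4) ^ j := by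
        rw [← mul_pow]; norm_num
      have h4' : (2 : ℝ) ^ j * (1 / 4) ^ j ≤ 1 := by
        rw [← mul_pow]
        exact pow_le_one₀ (by norm_num) (by norm_num)
      have h2pos : (0 : ℝ) < (1 / 2) ^ j := by positivity
      have h4pos : (0 : ℝ) < (1 / 4) ^ j := by positivity
      rw [h8]
      have h9 : ((j : ℝ) + 1) * (1 / 4) ^ j ≤ 1 :=
        le_trans (mul_le_mul_of_nonneg_right hj2 h4pos.le) h4'
      calc ((j : ℝ) + 1) * ((1 / 2) ^ j * (1 / 4) ^ j)
          = (1 / 2) ^ j * (((j : ℝ) + 1) * (1 / 4) ^ j) := by ring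
        _ ≤ (1 / 2) ^ j * 1 := mul_le_mul_of_nonneg_left h9 h2pos.le
        _ = (1 / 2) ^ j := mul_one _
    calc (D + 1) * β ^ j ≤ ((m : ℝ) + 1) * ((j : ℝ) + 1) * (1 / 8) ^ j :=
          mul_le_mul ha hb (by positivity) (by positivity)
      _ = ((m : ℝ) + 1) * (((j : ℝ) + 1) * (1 / 8) ^ j) := by ring
      _ ≤ ((m : ℝ) + 1) * (1 / 2) ^ j := mul_le_mul_of_nonneg_left hc' (by positivity)
  have h4 := numB m hm
  have hxm : (0 : ℝ) ≤ (x / m) ^ m := by positivity
  have hn0 : (0 : ℝ) ≤ n := Nat.cast_nonneg n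
  have h5 : (1000 * x / (2 * m)) ^ m = 500 ^ m * (x / m) ^ m := by
    rw [← mul_pow]
    congr 1
    field_simp
    ring
  calc c * ((m + j).choose m : ℝ)
      ≤ ((D + 1) * (3 * n * β ^ (m + j))) * (3 * D / m) ^ m :=
        mul_le_mul hc h1 (by positivity) (by positivity)
    _ = 3 * n * ((D + 1) * β ^ j) * (β ^ m * (3 * D / m) ^ m) := by
        rw [pow_add]; ring
    _ ≤ 3 * n * (((m : ℝ) + 1) * (1 / 2) ^ j) * (9 ^ m * (x / m) ^ m) := by
        rw [h2]
        apply mul_le_mul_of_nonneg_right _ (by positivity)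
        exact mul_le_mul_of_nonneg_left h3 (by positivity)
    _ ≤ (n / ((m : ℝ) + 1)) * (1000 * x / (2 * m)) ^ m / 4 * (1 / 2) ^ j := by
        rw [h5]
        have hm1 : (0 : ℝ) < (m : ℝ) + 1 := by positivity
        have hh : (0 : ℝ) ≤ (1 / 2 : ℝ) ^ j := by positivity
        have key : 3 * ((m : ℝ) + 1) * 9 ^ m ≤ 500 ^ m / (4 * ((m : ℝ) + 1)) := by
          rw [le_div_iff₀ (by positivity)]
          nlinarith
        have e1 : 3 * (n : ℝ) * (((m : ℝ) + 1) * (1 / 2) ^ j) * (9 ^ m * (x / m) ^ m)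
            = (3 * ((m : ℝ) + 1) * 9 ^ m) * (n * (1 / 2) ^ j * (x / m) ^ m) := by ring
        have e2 : (n / ((m : ℝ) + 1)) * (500 ^ m * (x / m) ^ m) / 4 * (1 / 2) ^ j
            = (500 ^ m / (4 * ((m : ℝ) + 1))) * (n * (1 / 2) ^ j * (x / m) ^ m) := by
          field_simp
        rw [e1, e2]
        exact mul_le_mul_of_nonneg_right key (by positivity)


lemma degree_sum_bound {n : ℕ} (H : SimpleGraph (Fin n)) [DecidableRel H.Adj] (q : ℝ)
    (hq0 : 0 ≤ q) (hyp : AllExpectedAtLeastOne H q) (m : ℕ) (hm : 1 ≤ m) (hmn : m + 1 ≤ n) :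
    (∑ v : Fin n, ((H.degree v).choose m : ℝ)) ≤ (n.choose (m + 1) : ℝ) * (1000 * q) ^ m := by
  classical
  have hn1 : 1 ≤ n := by omega
  have hnpos : (0 : ℝ) < n := by exact_mod_cast hn1
  have hmpos : (0 : ℝ) < m := by exact_mod_cast hm
  set x : ℝ := n * q with hx
  have hx0 : 0 ≤ x := by positivity
  set R₀ : ℝ := (n / ((m : ℝ) + 1)) * (1000 * x / (2 * m)) ^ m with hR
  have hR0 : 0 ≤ R₀ := by positivity
  have hRle : R₀ ≤ (n.choose (m + 1) : ℝ) * (1000 * q) ^ m := by
    have h1 := div_pow_le_choose (m + 1) (by omega) n hmn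
    have h2 : (1000 * x / (2 * m)) ^ m ≤ (1000 * x / ((m : ℝ) + 1)) ^ m := by
      apply pow_le_pow_left₀ (by positivity)
      apply div_le_div_of_nonneg_left (by positivity) (by positivity)
      have : (1 : ℝ) ≤ m := by exact_mod_cast hm
      linarith
    have h3 : 1000 * x / ((m : ℝ) + 1) = (n / ((m : ℝ) + 1)) * (1000 * q) := by
      rw [hx]; ring
    calc R₀ ≤ (n / ((m : ℝ) + 1)) * (1000 * x / ((m : ℝ) + 1)) ^ m :=
          mul_le_mul_of_nonneg_left h2 (by positivity)
      _ = ((n : ℝ) / ((m + 1 : ℕ) : ℝ)) ^ (m + 1) * (1000 * q) ^ m := by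
          rw [h3, mul_pow, pow_succ]; push_cast; ring
      _ ≤ (n.choose (m + 1) : ℝ) * (1000 * q) ^ m :=
          mul_le_mul_of_nonneg_right h1 (by positivity)
  have hdeg : ∀ v : Fin n, H.degree v ∈ Finset.range n := by
    intro v
    rw [Finset.mem_range]
    have := H.degree_lt_card_verts v
    rwa [Fintype.card_fin] at this
  let c : ℕ → ℕ := fun d => ((Finset.univ : Finset (Fin n)).filter (fun v => H.degree v = d)).card
  have hsumc : ∑ d ∈ Finset.range n, c d = n := by
    have := Finset.card_eq_sum_card_fiberwise (s := (Finset.univ : Finset (Fin n)))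
      (t := Finset.range n) (f := fun v => H.degree v) (fun v _ => hdeg v)
    rw [Finset.card_univ, Fintype.card_fin] at this
    exact this.symm
  have hfib : ∑ v : Fin n, ((H.degree v).choose m : ℝ)
      = ∑ d ∈ Finset.range n, (c d : ℝ) * (d.choose m : ℝ) := by
    rw [← Finset.sum_fiberwise_of_maps_to (s := Finset.univ) (t := Finset.range n)
      (g := fun v => H.degree v) (fun v _ => hdeg v)]
    apply Finset.sum_congr rfl
    intro d _
    rw [Finset.sum_congr rfl (fun v hv => by rw [(Finset.mem_filter.mp hv).2]),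
      Finset.sum_const, nsmul_eq_mul]
  have hterm : ∀ d ∈ Finset.range n, (c d : ℝ) * (d.choose m : ℝ)
      ≤ (c d : ℝ) * (R₀ / (2 * n)) + (if m ≤ d then R₀ / 4 * (1 / 2 : ℝ) ^ (d - m) else 0) := by
    intro d _
    by_cases hmd : m ≤ d
    · rw [if_pos hmd]
      obtain ⟨j, rfl⟩ : ∃ j, d = m + j := ⟨d - m, by omega⟩
      rw [Nat.add_sub_cancel_left]
      by_cases hA : 24 * ((m + j : ℕ) : ℝ) ≤ 1000 * x
      · have h1 := caseA n m (m + j) x hm hn1 hx0 hA
        have h2 : (c (m + j) : ℝ) * ((m + j).choose m : ℝ) ≤ (c (m + j) : ℝ) * (R₀ / (2 * n)) :=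
          mul_le_mul_of_nonneg_left h1 (Nat.cast_nonneg _)
        have h3 : (0 : ℝ) ≤ R₀ / 4 * (1 / 2 : ℝ) ^ j := by positivity
        linarith
      · rw [not_le] at hA
        have h3x : 3 * (n : ℝ) * q = 3 * x := by rw [hx]; ring
        have hβ : 3 * (n : ℝ) * q ≤ ((m + j : ℕ) : ℝ) := by
          rw [h3x]
          have hD0 : (0 : ℝ) ≤ ((m + j : ℕ) : ℝ) := Nat.cast_nonneg _
          linarith
        have h1 := degree_class_bound H q hq0 hyp (m + j) (by omega) hβ
        rw [h3x] at h1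
        have h2 := caseB n m j x (c (m + j)) hm hx0 hA h1
        have h3 : (0 : ℝ) ≤ (c (m + j) : ℝ) * (R₀ / (2 * n)) := by positivity
        linarith
    · rw [if_neg hmd, Nat.choose_eq_zero_of_lt (by omega)]
      have h3 : (0 : ℝ) ≤ (c d : ℝ) * (R₀ / (2 * n)) := by positivity
      simpa using h3
  have hgeo : ∑ d ∈ Finset.range n, (if m ≤ d then R₀ / 4 * (1 / 2 : ℝ) ^ (d - m) else 0)
      = ∑ k ∈ Finset.range (n - m), R₀ / 4 * (1 / 2 : ℝ) ^ k := by
    rw [← Finset.sum_filter]
    have hIco : (Finset.range n).filter (fun d => m ≤ d) = Finset.Ico m n := by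
      ext d
      rw [Finset.mem_filter, Finset.mem_range, Finset.mem_Ico]
      tauto
    rw [hIco, Finset.sum_Ico_eq_sum_range]
    apply Finset.sum_congr rfl
    intro k _
    rw [Nat.add_sub_cancel_left]
  rw [hfib]
  calc ∑ d ∈ Finset.range n, (c d : ℝ) * (d.choose m : ℝ)
      ≤ ∑ d ∈ Finset.range n, ((c d : ℝ) * (R₀ / (2 * n))
          + (if m ≤ d then R₀ / 4 * (1 / 2 : ℝ) ^ (d - m) else 0)) := Finset.sum_le_sum hterm
    _ = (∑ d ∈ Finset.range n, (c d : ℝ)) * (R₀ / (2 * n))
          + ∑ k ∈ Finset.range (n - m), R₀ / 4 * (1 / 2 : ℝ) ^ k := by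
        rw [Finset.sum_add_distrib, Finset.sum_mul, hgeo]
    _ ≤ R₀ / 2 + R₀ / 2 := by
        apply add_le_add
        · have h4 : (∑ d ∈ Finset.range n, (c d : ℝ)) = n := by exact_mod_cast hsumc
          rw [h4]
          apply le_of_eq
          field_simp
        · rw [← Finset.mul_sum, geom_sum_eq (by norm_num)]
          have hp : (0 : ℝ) ≤ (1 / 2 : ℝ) ^ (n - m) := by positivity
          have h5 : ((1 / 2 : ℝ) ^ (n - m) - 1) / (1 / 2 - 1) ≤ 2 := by
            rw [div_le_iff_of_neg (by norm_num)]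
            linarith
          nlinarith
    _ = R₀ := by ring
    _ ≤ (n.choose (m + 1) : ℝ) * (1000 * q) ^ m := hRle

/-- **Star case of the Dubroff-Kahn-Park counting inequality, with a universal constant.**
Let `H` be a graph on `n` vertices and `q ≥ 0`.  Suppose every subgraph `F` of `H` has
expected count at least `1` in the random graph `G(n,q)`, that is,
`N(K_n, F) * q ^ e(F) ≥ 1`.  Then for every `m ≥ 1` the number of copies in `H` of the star
with `m` leaves is at most its expected number of copies in `G(n, min(1, 1000 q))`. -/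
theorem result :
    ∀ (n : ℕ) (H : SimpleGraph (Fin n)) (q : ℝ), 0 ≤ q →
      (∀ F : SimpleGraph (Fin n), F ≤ H →
        1 ≤ ((⊤ : SimpleGraph (Fin n)).copyCount F : ℝ) * q ^ F.edgeSet.ncard) →
      ∀ m : ℕ, 1 ≤ m →
        (H.copyCount (completeBipartiteGraph (Fin 1) (Fin m)) : ℝ)
          ≤ ((⊤ : SimpleGraph (Fin n)).copyCount (completeBipartiteGraph (Fin 1) (Fin m)) : ℝ)
              * (min 1 (1000 * q)) ^ m := by
  intro n H q hq0 hyp m hm
  classical
  by_cases hL : 1 ≤ 1000 * q
  · rw [min_eq_left hL, one_pow, mul_one]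
    have hmono := copyCount_mono (le_top : H ≤ ⊤) (completeBipartiteGraph (Fin 1) (Fin m))
    exact_mod_cast hmono
  rw [not_le] at hL
  rw [min_eq_right hL.le]
  have hS1 := star_copyCount_le H m
  have hS2 := choose_le_copyCount_top n m
  have hmain : (∑ v : Fin n, ((H.degree v).choose m : ℝ))
      ≤ (n.choose (m + 1) : ℝ) * (1000 * q) ^ m := by
    by_cases hmn : m + 1 ≤ n
    · exact degree_sum_bound H q hq0 hyp m hm hmn
    · have hz : ∀ v : Fin n, ((H.degree v).choose m : ℝ) = 0 := by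
        intro v
        have h1 := H.degree_lt_card_verts v
        rw [Fintype.card_fin] at h1
        rw [Nat.choose_eq_zero_of_lt (by omega)]
        simp
      rw [Finset.sum_congr rfl (fun v _ => hz v), Finset.sum_const_zero]
      positivity
  calc (H.copyCount (completeBipartiteGraph (Fin 1) (Fin m)) : ℝ)
      ≤ ((∑ v : Fin n, (H.degree v).choose m : ℕ) : ℝ) := by exact_mod_cast hS1
    _ = ∑ v : Fin n, ((H.degree v).choose m : ℝ) := by push_cast; rfl
    _ ≤ (n.choose (m + 1) : ℝ) * (1000 * q) ^ m := hmain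
    _ ≤ ((⊤ : SimpleGraph (Fin n)).copyCount (completeBipartiteGraph (Fin 1) (Fin m)) : ℝ)
          * (1000 * q) ^ m :=
        mul_le_mul_of_nonneg_right (by exact_mod_cast hS2) (by positivity)

end Vale.Agent.Results.P064.StarCounts
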