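import Mathlib

/-!
Shared definitions for the P064 counting inequality for connected graphs
(helper8).  A copy of `F` (on `Fin v`) in a graph on `Fin n` is recorded by the
pair (vertex set, edge set) of its image.
-/

namespace Vale.Agent.Helper8.KK

open Finset SimpleGraph

/-- The pair (vertex set, edge set) of the image of `F` under a vertex map `f`. -/
noncomputable def pr {n v : ℕ} (F : SimpleGraph (Fin v)) (f : Fin v → Fin n) :
    Finset (Fin n) × Finset (Sym2 (Fin n)) := by
  classical
  exact ((Finset.univ : Finset (Fin v)).image f, F.edgeFinset.image (Sym2.map f))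

/-- All pairs (vertex set, edge set) of images of `F` under injective
homomorphisms into `G`. -/
noncomputable def pairs {n v : ℕ} (G : SimpleGraph (Fin n)) (F : SimpleGraph (Fin v)) :
    Finset (Finset (Fin n) × Finset (Sym2 (Fin n))) := by
  classical
  exact ((Finset.univ : Finset (Fin v → Fin n)).filter
    (fun f => Function.Injective f ∧ ∀ a b, F.Adj a b → G.Adj (f a) (f b))).image (pr F)

/-- The edges of `H` with at least one endpoint in `τ`. -/
noncomputable def bd {n : ℕ} (H : SimpleGraph (Fin n)) (τ : Finset (Fin n)) :
    Finset (Sym2 (Fin n)) := by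
  classical
  exact H.edgeFinset.filter (fun z => ∃ p ∈ τ, p ∈ z)

/-- The vertices outside `τ` that have a neighbour in `τ`. -/
noncomputable def nb {n : ℕ} (H : SimpleGraph (Fin n)) (τ : Finset (Fin n)) :
    Finset (Fin n) := by
  classical
  exact (Finset.univ : Finset (Fin n)).filter (fun b => b ∉ τ ∧ ∃ a ∈ τ, H.Adj a b)

/-- Two vertex sets are far apart: disjoint and joined by no edge of `H`. -/
def Far {n : ℕ} (H : SimpleGraph (Fin n)) (τ τ' : Finset (Fin n)) : Prop :=
  Disjoint τ τ' ∧ ∀ a ∈ τ, ∀ b ∈ τ', ¬ H.Adj a b

end Vale.Agent.Helper8.KK
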