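import Vale.Agent.Helper8.KK.Linear
import Vale.Agent.Helper25.KKIsolated

/-!
The counting inequality for every graph with a constant linear in `n q` (helper8), and
its form with the expected counts bounded below by one half.
-/

namespace Vale.Agent.Helper8.KK

open SimpleGraph

theorem all_graphs_linear {n : ℕ} (H : SimpleGraph (Fin n)) (q : ℝ) (hq : 0 ≤ q)
    (hyp : ∀ F' : SimpleGraph (Fin n), F' ≤ H →
        1 ≤ ((⊤ : SimpleGraph (Fin n)).copyCount F' : ℝ) * q ^ F'.edgeSet.ncard)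
    {v : ℕ} (F : SimpleGraph (Fin v)) :
    (H.copyCount F : ℝ) ≤ ((⊤ : SimpleGraph (Fin n)).copyCount F : ℝ) *
      (min 1 (19224 * (1 + (n : ℝ) * q) * q)) ^ F.edgeSet.ncard := by
  have hnq0 : (0:ℝ) ≤ (n : ℝ) * q := by positivity
  have hconn : ∀ (w : ℕ) (G : SimpleGraph (Fin w)), G.Connected → 1 ≤ G.edgeSet.ncard →
      (H.copyCount G : ℝ) ≤ 27 * ((⊤ : SimpleGraph (Fin n)).copyCount G : ℝ) *
        (96 * (1 + (n : ℝ) * q) * q) ^ G.edgeSet.ncard := by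
    intro w G hG he
    have h1 := connected_count_linear H q hq hyp G hG he
    rw [mul_pow]
    calc (H.copyCount G : ℝ)
        ≤ 27 * ((⊤ : SimpleGraph (Fin n)).copyCount G : ℝ) *
            q ^ G.edgeSet.ncard * (96 * (1 + (n : ℝ) * q)) ^ G.edgeSet.ncard := h1
      _ = 27 * ((⊤ : SimpleGraph (Fin n)).copyCount G : ℝ) *
            ((96 * (1 + (n : ℝ) * q)) ^ G.edgeSet.ncard * q ^ G.edgeSet.ncard) := by ring
  have hc0 : (0:ℝ) ≤ 2592 * (1 + (n : ℝ) * q) * q := by positivity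
  have hcc : ∀ (w : ℕ) (G : SimpleGraph (Fin w)), G.Connected → 1 ≤ G.edgeSet.ncard →
      (H.copyCount G : ℝ) ≤ ((⊤ : SimpleGraph (Fin n)).copyCount G : ℝ) *
        (2592 * (1 + (n : ℝ) * q) * q) ^ G.edgeSet.ncard := by
    intro w G hG he
    have h1 := hconn w G hG he
    have hN : (0:ℝ) ≤ ((⊤ : SimpleGraph (Fin n)).copyCount G : ℝ) := Nat.cast_nonneg _
    have hb0 : (0:ℝ) ≤ 96 * (1 + (n : ℝ) * q) * q := by positivity
    have h27 : (27:ℝ) ≤ 27 ^ G.edgeSet.ncard := by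
      calc (27:ℝ) = 27 ^ 1 := (pow_one _).symm
        _ ≤ 27 ^ G.edgeSet.ncard := pow_le_pow_right₀ (by norm_num) he
    have h2 : (2592 * (1 + (n : ℝ) * q) * q) ^ G.edgeSet.ncard
        = 27 ^ G.edgeSet.ncard * (96 * (1 + (n : ℝ) * q) * q) ^ G.edgeSet.ncard := by
      rw [← mul_pow]
      congr 1
      ring
    rw [h2]
    have hp : (0:ℝ) ≤ (96 * (1 + (n : ℝ) * q) * q) ^ G.edgeSet.ncard := by positivity
    calc (H.copyCount G : ℝ)
        ≤ 27 * ((⊤ : SimpleGraph (Fin n)).copyCount G : ℝ) *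
            (96 * (1 + (n : ℝ) * q) * q) ^ G.edgeSet.ncard := h1
      _ = ((⊤ : SimpleGraph (Fin n)).copyCount G : ℝ) *
            (27 * (96 * (1 + (n : ℝ) * q) * q) ^ G.edgeSet.ncard) := by ring
      _ ≤ ((⊤ : SimpleGraph (Fin n)).copyCount G : ℝ) *
            (27 ^ G.edgeSet.ncard * (96 * (1 + (n : ℝ) * q) * q) ^ G.edgeSet.ncard) := by
          apply mul_le_mul_of_nonneg_left _ hN
          exact mul_le_mul_of_nonneg_right h27 hp
  have h3 := Vale.Agent.Helper25.KKIsolated.all_graphs_any_general H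
    (2592 * (1 + (n : ℝ) * q) * q) hc0 hcc F
  have hexp : Real.exp 2 * (2592 * (1 + (n : ℝ) * q) * q)
      ≤ 19224 * (1 + (n : ℝ) * q) * q := by
    have h24 := Vale.Agent.Helper25.KKAllGraphs.exp_two_mul_le
    have hpos : (0:ℝ) ≤ (1 + (n : ℝ) * q) * q := by positivity
    nlinarith
  refine h3.trans ?_
  apply mul_le_mul_of_nonneg_left _ (Nat.cast_nonneg _)
  have h0 : (0:ℝ) ≤ min 1 (Real.exp 2 * (2592 * (1 + (n : ℝ) * q) * q)) := by
    apply le_min zero_le_one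
    positivity
  exact pow_le_pow_left₀ h0 (min_le_min le_rfl hexp) _

/-- The hypothesis with one half at density `p` gives the hypothesis with one at `2 p`. -/
theorem hyp_of_half {n : ℕ} (H : SimpleGraph (Fin n)) (p : ℝ) (hp : 0 ≤ p)
    (hyp : ∀ F' : SimpleGraph (Fin n), F' ≤ H →
        1 / 2 ≤ ((⊤ : SimpleGraph (Fin n)).copyCount F' : ℝ) * p ^ F'.edgeSet.ncard) :
    ∀ F' : SimpleGraph (Fin n), F' ≤ H →
        1 ≤ ((⊤ : SimpleGraph (Fin n)).copyCount F' : ℝ) * (2 * p) ^ F'.edgeSet.ncard := by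
  intro F' hF'
  have h1 := hyp F' hF'
  by_cases he : F'.edgeSet.ncard = 0
  · rw [he, pow_zero, mul_one]
    have hpos : 0 < (⊤ : SimpleGraph (Fin n)).copyCount F' :=
      copyCount_pos.mpr (IsContained.of_le le_top)
    exact_mod_cast hpos
  · have he1 : 1 ≤ F'.edgeSet.ncard := Nat.one_le_iff_ne_zero.mpr he
    have h2 : (2:ℝ) ≤ 2 ^ F'.edgeSet.ncard := by
      calc (2:ℝ) = 2 ^ 1 := (pow_one _).symm
        _ ≤ 2 ^ F'.edgeSet.ncard := pow_le_pow_right₀ (by norm_num) he1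
    have hN : (0:ℝ) ≤ ((⊤ : SimpleGraph (Fin n)).copyCount F' : ℝ) := Nat.cast_nonneg _
    have hpp : (0:ℝ) ≤ p ^ F'.edgeSet.ncard := by positivity
    rw [mul_pow]
    have h3 : (0:ℝ) ≤ ((⊤ : SimpleGraph (Fin n)).copyCount F' : ℝ) * p ^ F'.edgeSet.ncard :=
      mul_nonneg hN hpp
    calc (1:ℝ) ≤ 2 * (((⊤ : SimpleGraph (Fin n)).copyCount F' : ℝ) * p ^ F'.edgeSet.ncard) := by
          linarith
      _ ≤ 2 ^ F'.edgeSet.ncard *
            (((⊤ : SimpleGraph (Fin n)).copyCount F' : ℝ) * p ^ F'.edgeSet.ncard) :=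
          mul_le_mul_of_nonneg_right h2 h3
      _ = ((⊤ : SimpleGraph (Fin n)).copyCount F' : ℝ) *
            (2 ^ F'.edgeSet.ncard * p ^ F'.edgeSet.ncard) := by ring

theorem all_graphs_half {n : ℕ} (H : SimpleGraph (Fin n)) (p : ℝ) (hp : 0 ≤ p)
    (hyp : ∀ F' : SimpleGraph (Fin n), F' ≤ H →
        1 / 2 ≤ ((⊤ : SimpleGraph (Fin n)).copyCount F' : ℝ) * p ^ F'.edgeSet.ncard)
    {v : ℕ} (F : SimpleGraph (Fin v)) :
    (H.copyCount F : ℝ) ≤ ((⊤ : SimpleGraph (Fin n)).copyCount F : ℝ) *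
      (min 1 (76896 * (1 + (n : ℝ) * p) * p)) ^ F.edgeSet.ncard := by
  have h2p : (0:ℝ) ≤ 2 * p := by positivity
  have h1 := all_graphs_linear H (2 * p) h2p (hyp_of_half H p hp hyp) F
  refine h1.trans ?_
  apply mul_le_mul_of_nonneg_left _ (Nat.cast_nonneg _)
  have hnp : (0:ℝ) ≤ (n : ℝ) * p := by positivity
  have h0 : (0:ℝ) ≤ min 1 (19224 * (1 + (n : ℝ) * (2 * p)) * (2 * p)) := by
    apply le_min zero_le_one
    positivity
  have hle : 19224 * (1 + (n : ℝ) * (2 * p)) * (2 * p) ≤ 76896 * (1 + (n : ℝ) * p) * p := by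
    nlinarith [mul_nonneg hnp hp]
  exact pow_le_pow_left₀ h0 (min_le_min le_rfl hle) _

end Vale.Agent.Helper8.KK
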