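import Vale.Agent.Helper8.KK.Packing

/-!
Basic facts on the pairs (vertex set, edge set) of copies (helper8).
-/

namespace Vale.Agent.Helper8.KK

open Finset SimpleGraph

theorem pairCardFst {n v : ℕ} (H : SimpleGraph (Fin n)) (F : SimpleGraph (Fin v))
    (x : Finset (Fin n) × Finset (Sym2 (Fin n))) (hx : x ∈ pairs H F) : x.1.card = v := by
  classical
  obtain ⟨f, hinj, -, rfl⟩ := mem_pairs.mp hx
  rw [prFst, Finset.card_image_of_injective _ hinj, Finset.card_univ, Fintype.card_fin]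

theorem pairSndSubset {n v : ℕ} (H : SimpleGraph (Fin n)) (F : SimpleGraph (Fin v))
    (x : Finset (Fin n) × Finset (Sym2 (Fin n))) (hx : x ∈ pairs H F) : x.2 ⊆ bd H x.1 := by
  classical
  obtain ⟨f, -, hhom, rfl⟩ := mem_pairs.mp hx
  intro z hz
  rw [prSnd, Finset.mem_image] at hz
  obtain ⟨z0, hz0, rfl⟩ := hz
  induction z0 using Sym2.ind with
  | _ a b =>
    rw [mem_edgeFinset, mem_edgeSet] at hz0
    rw [Sym2.map_mk, mem_bd]
    refine ⟨hhom a b hz0, Or.inl ?_⟩
    rw [prFst]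
    exact Finset.mem_image_of_mem f (Finset.mem_univ a)

theorem pairCardSnd {n v : ℕ} (H : SimpleGraph (Fin n)) (F : SimpleGraph (Fin v))
    (x : Finset (Fin n) × Finset (Sym2 (Fin n))) (hx : x ∈ pairs H F) :
    x.2.card = F.edgeSet.ncard := by
  classical
  obtain ⟨f, hinj, -, rfl⟩ := mem_pairs.mp hx
  rw [prSnd, Finset.card_image_of_injective _ (Sym2.map.injective hinj), ncard_edgeSet_eq]

theorem fiberCardLe {n v : ℕ} (H : SimpleGraph (Fin n)) (F : SimpleGraph (Fin v))
    (τ : Finset (Fin n)) (P : Finset (Finset (Fin n) × Finset (Sym2 (Fin n))))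
    (hP : ∀ x ∈ P, x ∈ pairs H F ∧ x.1 = τ) : P.card ≤ 2 ^ (bd H τ).card := by
  classical
  rw [← Finset.card_powerset]
  apply Finset.card_le_card_of_injOn (fun x => x.2)
  · intro x hx
    rw [Finset.mem_coe, Finset.mem_powerset]
    obtain ⟨h1, h2⟩ := hP x hx
    rw [← h2]
    exact pairSndSubset H F x h1
  · intro x hx y hy hxy
    exact Prod.ext (((hP x hx).2).trans ((hP y hy).2).symm) hxy

end Vale.Agent.Helper8.KK
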