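import Mathlib

namespace Vale.Agent.Helper8.KK

open Finset

lemma pow_self_le' (k : ℕ) : (k : ℝ) ^ k ≤ 3 ^ k * k.factorial := by
  have h := Real.pow_div_factorial_le_exp (k : ℝ) (Nat.cast_nonneg k) k
  have h3 : Real.exp (k : ℝ) ≤ 3 ^ k := by
    have h4 : Real.exp (k : ℝ) = Real.exp 1 ^ k := by
      rw [← Real.exp_nat_mul, mul_one]
    rw [h4]
    exact pow_le_pow_left₀ (Real.exp_pos 1).le Real.exp_one_lt_three.le k
  have hpos : (0 : ℝ) < k.factorial := by exact_mod_cast Nat.factorial_pos k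
  have h5 := h.trans h3
  rw [div_le_iff₀ hpos] at h5
  exact h5

/-- From the expectation hypothesis for a union of `r` far-apart pieces. -/
theorem arith_pack (Z r m : ℕ) (q : ℝ) (hq : 0 ≤ q) (hr : 1 ≤ r)
    (h : 1 ≤ (Z.choose r : ℝ) * q ^ (r * m)) : (r : ℝ) ≤ 3 * Z * q ^ m := by
  have hfact : (0 : ℝ) < r.factorial := by exact_mod_cast Nat.factorial_pos r
  have h1 : (Z.choose r : ℝ) ≤ (Z : ℝ) ^ r / r.factorial := Nat.choose_le_pow_div r Z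
  have hqm : 0 ≤ q ^ (r * m) := pow_nonneg hq _
  have h2 : 1 ≤ (Z : ℝ) ^ r / r.factorial * q ^ (r * m) :=
    h.trans (mul_le_mul_of_nonneg_right h1 hqm)
  have h3 : (r.factorial : ℝ) ≤ ((Z : ℝ) * q ^ m) ^ r := by
    have h4 : (Z : ℝ) ^ r / r.factorial * q ^ (r * m) = ((Z : ℝ) * q ^ m) ^ r / r.factorial := by
      rw [mul_pow, ← pow_mul, mul_comm m r]; ring
    rw [h4, le_div_iff₀ hfact] at h2
    linarith
  have h5 : (r : ℝ) ^ r ≤ (3 * Z * q ^ m) ^ r := by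
    calc (r : ℝ) ^ r ≤ 3 ^ r * r.factorial := pow_self_le' r
      _ ≤ 3 ^ r * ((Z : ℝ) * q ^ m) ^ r := by
          apply mul_le_mul_of_nonneg_left h3; positivity
      _ = (3 * Z * q ^ m) ^ r := by rw [← mul_pow]; ring_nf
  have hr0 : r ≠ 0 := by omega
  have hnn : (0 : ℝ) ≤ 3 * Z * q ^ m := by positivity
  exact (pow_le_pow_iff_left₀ (Nat.cast_nonneg r) hnn hr0).mp h5

theorem arith_sum (e v n M : ℕ) (N q : ℝ) (hq : 0 ≤ q) (hN : 0 ≤ N) :
    ∑ s ∈ Finset.range M, (2:ℝ)^(e+s) * ((2:ℝ)^(v+s) * (3*N*q^e*(((v:ℝ)*n*q)^s / s.factorial)))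
      ≤ 3*2^(e+v)*N*q^e*Real.exp (4*v*n*q) := by
  have hx : (0:ℝ) ≤ 4*v*n*q := by positivity
  have h1 := Real.sum_le_exp_of_nonneg hx M
  have h2 : ∑ s ∈ Finset.range M, (2:ℝ)^(e+s) * ((2:ℝ)^(v+s) * (3*N*q^e*(((v:ℝ)*n*q)^s / s.factorial)))
      = 3*2^(e+v)*N*q^e * ∑ s ∈ Finset.range M, (4*v*n*q)^s / s.factorial := by
    rw [Finset.mul_sum]
    apply Finset.sum_congr rfl
    intro s _
    have h4 : (4*(v:ℝ)*n*q)^s = 2^s * 2^s * ((v:ℝ)*n*q)^s := by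
      rw [← mul_pow, ← mul_pow]
      congr 1
      ring
    rw [h4, pow_add, pow_add, pow_add]
    ring
  rw [h2]
  apply mul_le_mul_of_nonneg_left h1
  positivity

theorem arith_final (e v n : ℕ) (q : ℝ) (hq : 0 ≤ q) (he : 1 ≤ e) (hv : v ≤ e+1) :
    3*(2:ℝ)^(e+v)*q^e*Real.exp (4*v*n*q) ≤ (24*Real.exp (8*n*q)*q)^e := by
  have h1 : (24*Real.exp (8*n*q)*q)^e = 24^e * Real.exp (e * (8*n*q)) * q^e := by
    rw [mul_pow, mul_pow, ← Real.exp_nat_mul]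
  rw [h1]
  have h2 : 3*(2:ℝ)^(e+v) ≤ 24^e := by
    have h3 : (2:ℝ)^(e+v) ≤ 2^(e+(e+1)) := pow_le_pow_right₀ (by norm_num) (by omega)
    have h4 : (2:ℝ)^(e+(e+1)) = 2 * 4^e := by
      have h44 : (4:ℝ)^e = 2^e * 2^e := by rw [← mul_pow]; norm_num
      rw [pow_add, pow_succ, h44]; ring
    have h5 : (6:ℝ) * 4^e ≤ 24^e := by
      have h6 : (24:ℝ)^e = 6^e * 4^e := by rw [← mul_pow]; norm_num
      rw [h6]
      apply mul_le_mul_of_nonneg_right _ (by positivity)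
      calc (6:ℝ) = 6^1 := by norm_num
        _ ≤ 6^e := pow_le_pow_right₀ (by norm_num) he
    linarith
  have h7 : Real.exp (4*v*n*q) ≤ Real.exp (e * (8*n*q)) := by
    apply Real.exp_le_exp.mpr
    have hv' : (v:ℝ) ≤ 2 * e := by
      have : v ≤ 2 * e := by omega
      exact_mod_cast this
    have hnq : (0:ℝ) ≤ n * q := by positivity
    nlinarith
  have hqe : (0:ℝ) ≤ q^e := by positivity
  calc 3*(2:ℝ)^(e+v)*q^e*Real.exp (4*v*n*q)
      = (3*(2:ℝ)^(e+v)) * Real.exp (4*v*n*q) * q^e := by ring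
    _ ≤ 24^e * Real.exp (e * (8*n*q)) * q^e := by
        apply mul_le_mul_of_nonneg_right _ hqe
        apply mul_le_mul h2 h7 (Real.exp_pos _).le (by positivity)

end Vale.Agent.Helper8.KK
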