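import Vale.Agent.Helper8.KK.Arith

/-!
Real arithmetic for the polynomial version of the counting inequality (helper8).
-/

namespace Vale.Agent.Helper8.KK

theorem ratio_pow_le (K v : ℕ) (hK : 1 ≤ K) :
    (((K + 1 : ℕ) : ℝ) / (((K + 1 : ℕ) : ℝ) - 1)) ^ (K * v) ≤ 3 ^ v := by
  have hKpos : (0:ℝ) < (K : ℝ) := by exact_mod_cast hK
  have hbase : (((K + 1 : ℕ) : ℝ) / (((K + 1 : ℕ) : ℝ) - 1)) = 1 + 1 / (K : ℝ) := by
    have hne : (K : ℝ) ≠ 0 := hKpos.ne'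
    push_cast
    rw [add_sub_cancel_right, add_div, div_self hne]
  rw [hbase, pow_mul]
  apply pow_le_pow_left₀ (by positivity)
  have h1 : 1 + 1 / (K : ℝ) ≤ Real.exp (1 / (K : ℝ)) := by
    have := Real.add_one_le_exp (1 / (K : ℝ))
    linarith
  have h2 : (1 + 1 / (K : ℝ)) ^ K ≤ Real.exp (1 / (K : ℝ)) ^ K :=
    pow_le_pow_left₀ (by positivity) h1 K
  have h3 : Real.exp (1 / (K : ℝ)) ^ K = Real.exp 1 := by
    rw [← Real.exp_nat_mul]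
    congr 1
    field_simp
  rw [h3] at h2
  exact h2.trans Real.exp_one_lt_three.le

theorem tail_term (v n s K : ℕ) (q : ℝ) (hq : 0 ≤ q) (hK : 8 * ((n:ℝ) * q) ≤ K)
    (hs : K * v < s) :
    (2:ℝ)^(v+s) * (((v:ℝ)*n*q)^s / s.factorial) ≤ 2^v * (3/4:ℝ)^s := by
  have hfpos : (0:ℝ) < s.factorial := by exact_mod_cast Nat.factorial_pos s
  have hy0 : (0:ℝ) ≤ (v:ℝ)*n*q := by positivity
  have hs' : ((K:ℝ) * v) ≤ s := by exact_mod_cast hs.le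
  have hy : (v:ℝ)*n*q ≤ (s:ℝ) / 8 := by
    have hv0 : (0:ℝ) ≤ (v:ℝ) := Nat.cast_nonneg v
    have h1 : 8 * ((v:ℝ)*n*q) ≤ (K:ℝ) * v := by nlinarith
    linarith
  have h2 : ((v:ℝ)*n*q)^s ≤ ((s:ℝ)/8)^s := pow_le_pow_left₀ hy0 hy s
  have h3 := pow_self_le' s
  have h4 : ((v:ℝ)*n*q)^s / s.factorial ≤ (3/8:ℝ)^s := by
    rw [div_le_iff₀ hfpos]
    calc ((v:ℝ)*n*q)^s ≤ ((s:ℝ)/8)^s := h2
      _ = (s:ℝ)^s / 8^s := by rw [div_pow]
      _ ≤ (3^s * s.factorial) / 8^s := by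
          apply div_le_div_of_nonneg_right h3 (by positivity)
      _ = (3/8:ℝ)^s * s.factorial := by rw [div_pow]; ring
  calc (2:ℝ)^(v+s) * (((v:ℝ)*n*q)^s / s.factorial)
      ≤ (2:ℝ)^(v+s) * (3/8:ℝ)^s := mul_le_mul_of_nonneg_left h4 (by positivity)
    _ = 2^v * (3/4:ℝ)^s := by
        rw [pow_add, mul_assoc, ← mul_pow]
        norm_num

theorem tail_sum (M : ℕ) : ∑ s ∈ Finset.range M, (3/4:ℝ)^s ≤ 4 := by
  have h := geom_sum_eq (show (3/4:ℝ) ≠ 1 by norm_num) M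
  rw [h]
  have hp : (0:ℝ) ≤ (3/4:ℝ)^M := by positivity
  rw [div_le_iff_of_neg (by norm_num)]
  linarith

theorem ceil_bound (x : ℝ) (hx : 0 ≤ x) : ((⌈8 * x⌉₊ + 1 : ℕ) : ℝ) + 1 ≤ 8 * (1 + x) := by
  have h := Nat.ceil_lt_add_one (show (0:ℝ) ≤ 8 * x by positivity)
  push_cast
  linarith

theorem poly_final_aux (e v : ℕ) (a q : ℝ) (hq : 0 ≤ q) (ha1 : 1 ≤ a) (he : 1 ≤ e)
    (hv : v ≤ e + 1) : 15 * q^e * a^v ≤ ((15 * a) * (a * q))^e := by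
  have h1 : a ^ v ≤ a ^ (e + 1) := pow_le_pow_right₀ ha1 hv
  have h3 : (15 * a) ≤ (15 * a) ^ e := by
    calc (15 * a) = (15 * a) ^ 1 := (pow_one _).symm
      _ ≤ (15 * a) ^ e := pow_le_pow_right₀ (by linarith) he
  have hqe : (0:ℝ) ≤ q ^ e := by positivity
  have haq : (0:ℝ) ≤ (a * q) ^ e := by positivity
  calc 15 * q ^ e * a ^ v ≤ 15 * q ^ e * a ^ (e + 1) :=
        mul_le_mul_of_nonneg_left h1 (by positivity)
    _ = (15 * a) * (a * q) ^ e := by rw [mul_pow, pow_succ]; ring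
    _ ≤ (15 * a) ^ e * (a * q) ^ e := mul_le_mul_of_nonneg_right h3 haq
    _ = ((15 * a) * (a * q)) ^ e := (mul_pow _ _ _).symm

theorem poly_final (e v n : ℕ) (q : ℝ) (hq : 0 ≤ q) (he : 1 ≤ e) (hv : v ≤ e + 1) :
    15 * q^e * (96 * (1 + (n:ℝ) * q))^v ≤ (138240 * (1 + (n:ℝ)*q)^2 * q)^e := by
  have hnq : (0:ℝ) ≤ (n:ℝ) * q := by positivity
  have ha1 : (1:ℝ) ≤ 96 * (1 + (n:ℝ) * q) := by linarith
  have h := poly_final_aux e v (96 * (1 + (n:ℝ) * q)) q hq ha1 he hv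
  have h2 : 138240 * (1 + (n:ℝ)*q)^2 * q
      = (15 * (96 * (1 + (n:ℝ) * q))) * ((96 * (1 + (n:ℝ) * q)) * q) := by ring
  rw [h2]
  exact h

theorem dense_trivial (n : ℕ) (q : ℝ) (hq : 0 ≤ q) (h : ¬ (q < 1 ∧ (n:ℝ) * q^2 ≤ 1)) :
    1 ≤ 138240 * (1 + (n:ℝ)*q)^2 * q := by
  have hnq : (0:ℝ) ≤ (n:ℝ) * q := by positivity
  by_cases hq1 : q < 1
  · have h2 : 1 < (n:ℝ) * q^2 := by
      by_contra hc
      exact h ⟨hq1, not_lt.mp hc⟩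
    have h3 : 1 < (n:ℝ) * q := by
      by_contra hc
      rw [not_lt] at hc
      have : (n:ℝ) * q^2 ≤ 1 := by nlinarith
      linarith
    have h4 : (1:ℝ) ≤ ((n:ℝ) * q)^2 * q := by
      have : ((n:ℝ) * q)^2 * q = ((n:ℝ) * q) * ((n:ℝ) * q^2) := by ring
      rw [this]
      nlinarith
    have h5 : ((n:ℝ) * q)^2 * q ≤ (1 + (n:ℝ)*q)^2 * q := by
      apply mul_le_mul_of_nonneg_right _ hq
      nlinarith
    nlinarith
  · rw [not_lt] at hq1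
    have h5 : (1:ℝ) ≤ (1 + (n:ℝ)*q)^2 := by nlinarith
    nlinarith

end Vale.Agent.Helper8.KK
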