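import Vale.Agent.Helper8.KK.Packing
import Vale.Agent.Helper23.KKAveraging
import Vale.Agent.Helper16.KKNb
import Vale.Agent.Helper23.KKFar
import Vale.Agent.Helper8.KK.PairFacts

/-!
The counting inequality for connected graphs (helper8): assembly.
-/

namespace Vale.Agent.Helper8.KK

open Finset SimpleGraph

theorem connected_count_aux {n v : ℕ} (H : SimpleGraph (Fin n)) (q : ℝ) (hq : 0 ≤ q)
    (hyp : ∀ F' : SimpleGraph (Fin n), F' ≤ H →
      1 ≤ ((⊤ : SimpleGraph (Fin n)).copyCount F' : ℝ) * q ^ F'.edgeSet.ncard)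
    (F : SimpleGraph (Fin v)) (hF : F.Connected) (he : 1 ≤ F.edgeSet.ncard) :
    (H.copyCount F : ℝ) ≤ 3 * 2 ^ (F.edgeSet.ncard + v) *
      ((⊤ : SimpleGraph (Fin n)).copyCount F : ℝ) * q ^ F.edgeSet.ncard *
        Real.exp (4 * v * n * q) := by
  classical
  set e := F.edgeSet.ncard with he_def
  set N : ℝ := ((⊤ : SimpleGraph (Fin n)).copyCount F : ℝ) with hN_def
  set P := pairs H F with hP_def
  set VS := P.image Prod.fst with hVS_def
  set M := H.edgeFinset.card + 1 with hM_def
  have h1 : (H.copyCount F : ℝ) ≤ (P.card : ℝ) := by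
    exact_mod_cast copyCount_le_card_pairs H F
  have h2 : P.card = ∑ τ ∈ VS, (P.filter (fun x => x.1 = τ)).card :=
    Finset.card_eq_sum_card_image Prod.fst P
  have h3 : ∀ τ ∈ VS, (P.filter (fun x => x.1 = τ)).card ≤ 2 ^ (bd H τ).card := by
    intro τ _
    apply fiberCardLe H F τ
    intro x hx
    rw [Finset.mem_filter] at hx
    exact hx
  have hVS : ∀ τ ∈ VS, ∃ E, (τ, E) ∈ pairs H F := by
    intro τ hτ
    rw [hVS_def, Finset.mem_image] at hτ
    obtain ⟨x, hx, rfl⟩ := hτ
    exact ⟨x.2, hx⟩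
  have hbd_ge : ∀ τ ∈ VS, e ≤ (bd H τ).card := by
    intro τ hτ
    obtain ⟨E, hE⟩ := hVS τ hτ
    have h := Finset.card_le_card (pairSndSubset H F _ hE)
    rw [pairCardSnd H F _ hE] at h
    exact h
  have hbd_le : ∀ τ, (bd H τ).card < M := by
    intro τ
    have h : (bd H τ).card ≤ H.edgeFinset.card := by
      apply Finset.card_le_card
      unfold bd
      exact Finset.filter_subset _ _
    omega
  set Vs : ℕ → Finset (Finset (Fin n)) :=
    fun s => VS.filter (fun τ => (bd H τ).card = e + s) with hVs_def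
  have h4 : ∑ τ ∈ VS, 2 ^ (bd H τ).card = ∑ s ∈ range M, (Vs s).card * 2 ^ (e + s) := by
    rw [← Finset.sum_fiberwise_of_maps_to (g := fun τ => (bd H τ).card - e) (t := range M)]
    · apply Finset.sum_congr rfl
      intro s _
      have hfil : VS.filter (fun τ => (bd H τ).card - e = s) = Vs s := by
        apply Finset.filter_congr
        intro τ hτ
        have := hbd_ge τ hτ
        omega
      rw [hfil, Finset.card_eq_sum_ones, Finset.sum_mul]
      apply Finset.sum_congr rfl
      intro τ hτ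
      rw [hVs_def, Finset.mem_filter] at hτ
      rw [hτ.2, one_mul]
    · intro τ _
      rw [Finset.mem_range]
      have := hbd_le τ
      omega
  have h5 : ∀ s, ((Vs s).card : ℝ) ≤
      2 ^ (v + s) * (3 * N * q ^ e * (((v:ℝ) * n * q) ^ s / s.factorial)) := by
    intro s
    apply Vale.Agent.Helper23.KKAveraging.averaging (Vs s) (nb H) (v + s)
    · intro τ _
      rw [Finset.disjoint_left]
      intro a ha ha'
      unfold nb at ha'
      rw [Finset.mem_filter] at ha'
      exact ha'.2.1 ha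
    · intro τ hτ
      rw [hVs_def, Finset.mem_filter] at hτ
      obtain ⟨E, hE⟩ := hVS τ hτ.1
      have hc : τ.card = v := pairCardFst H F _ hE
      have hnb : (nb H τ).card ≤ s := by
        obtain ⟨f, hf, hhom, hpr⟩ := mem_pairs.mp hE
        have hτf : (pr F f).1 = τ := by rw [hpr]
        have h := card_nb_le H F f hf hhom e s rfl (by rw [hτf]; exact hτ.2)
        rw [hτf] at h
        exact h
      omega
    · intro R DD hDD hgood
      apply packing H F q hq hyp e s rfl he DD
      · intro τ hτ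
        exact hVS τ (Finset.mem_filter.mp (hDD hτ)).1
      · intro τ hτ τ' hτ' hne
        obtain ⟨E, hE⟩ := hVS τ (Finset.mem_filter.mp (hDD hτ)).1
        obtain ⟨E', hE'⟩ := hVS τ' (Finset.mem_filter.mp (hDD hτ')).1
        exact far_of_good H F hF R τ τ' E E' hE hE' hne (hgood τ hτ) (hgood τ' hτ')
      · intro τ hτ
        exact (Finset.mem_filter.mp (hDD hτ)).2
  calc (H.copyCount F : ℝ) ≤ (P.card : ℝ) := h1
    _ = ∑ τ ∈ VS, ((P.filter (fun x => x.1 = τ)).card : ℝ) := by
        rw [h2]; push_cast; rfl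
    _ ≤ ∑ τ ∈ VS, (2:ℝ) ^ (bd H τ).card := by
        apply Finset.sum_le_sum
        intro τ hτ
        exact_mod_cast h3 τ hτ
    _ = ∑ s ∈ range M, ((Vs s).card : ℝ) * 2 ^ (e + s) := by exact_mod_cast h4
    _ ≤ ∑ s ∈ range M, (2:ℝ) ^ (e + s) *
          ((2:ℝ) ^ (v + s) * (3 * N * q ^ e * (((v:ℝ) * n * q) ^ s / s.factorial))) := by
        apply Finset.sum_le_sum
        intro s _
        rw [mul_comm]
        exact mul_le_mul_of_nonneg_left (h5 s) (by positivity)
    _ ≤ 3 * 2 ^ (e + v) * N * q ^ e * Real.exp (4 * v * n * q) :=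
        arith_sum e v n M N q hq (Nat.cast_nonneg _)

/-- The counting inequality for connected graphs. -/
theorem connected_count {n v : ℕ} (H : SimpleGraph (Fin n)) (q : ℝ) (hq : 0 ≤ q)
    (hyp : ∀ F' : SimpleGraph (Fin n), F' ≤ H →
      1 ≤ ((⊤ : SimpleGraph (Fin n)).copyCount F' : ℝ) * q ^ F'.edgeSet.ncard)
    (F : SimpleGraph (Fin v)) (hF : F.Connected) (he : 1 ≤ F.edgeSet.ncard) :
    (H.copyCount F : ℝ) ≤ ((⊤ : SimpleGraph (Fin n)).copyCount F : ℝ) *
      (24 * Real.exp (8 * n * q) * q) ^ F.edgeSet.ncard := by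
  have h := connected_count_aux H q hq hyp F hF he
  have hv : v ≤ F.edgeSet.ncard + 1 := by
    have h' := hF.card_vert_le_card_edgeSet_add_one
    rw [Nat.card_eq_fintype_card, Fintype.card_fin] at h'
    rw [_root_.Nat.card_coe_set_eq] at h'
    exact h'
  have h2 := arith_final F.edgeSet.ncard v n q hq he hv
  have hN : (0:ℝ) ≤ ((⊤ : SimpleGraph (Fin n)).copyCount F : ℝ) := Nat.cast_nonneg _
  calc (H.copyCount F : ℝ) ≤ 3 * 2 ^ (F.edgeSet.ncard + v) *
      ((⊤ : SimpleGraph (Fin n)).copyCount F : ℝ) * q ^ F.edgeSet.ncard *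
        Real.exp (4 * v * n * q) := h
    _ = ((⊤ : SimpleGraph (Fin n)).copyCount F : ℝ) *
          (3 * 2 ^ (F.edgeSet.ncard + v) * q ^ F.edgeSet.ncard * Real.exp (4 * v * n * q)) := by
        ring
    _ ≤ ((⊤ : SimpleGraph (Fin n)).copyCount F : ℝ) *
          (24 * Real.exp (8 * n * q) * q) ^ F.edgeSet.ncard :=
        mul_le_mul_of_nonneg_left h2 hN

/-- Monotonicity of the copy count in the host graph. -/
lemma copyCount_mono' {V W : Type*} [Fintype V] {G₁ G₂ : SimpleGraph V} (h : G₁ ≤ G₂)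
    (K : SimpleGraph W) : G₁.copyCount K ≤ G₂.copyCount K := by
  classical
  rw [copyCount, copyCount]
  let ι : G₁.Subgraph → G₂.Subgraph := fun G' =>
    { verts := G'.verts, Adj := G'.Adj, adj_sub := fun hab => h (G'.adj_sub hab),
      edge_vert := fun hab => G'.edge_vert hab, symm := G'.symm }
  apply Finset.card_le_card_of_injOn ι
  · intro G' hG'
    simp only [Finset.coe_filter, Finset.mem_univ, true_and, Set.mem_ofPred_eq] at hG' ⊢
    exact hG'
  · intro A _ B _ hAB
    have h1 : (ι A).verts = (ι B).verts := congrArg Subgraph.verts hAB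
    have h2 : (ι A).Adj = (ι B).Adj := congrArg Subgraph.Adj hAB
    exact Subgraph.ext h1 h2

/-- The counting inequality for connected graphs, in the form with `min 1 (L q)`. -/
theorem connected_count_min {n v : ℕ} (H : SimpleGraph (Fin n)) (q : ℝ) (hq : 0 ≤ q)
    (hyp : ∀ F' : SimpleGraph (Fin n), F' ≤ H →
      1 ≤ ((⊤ : SimpleGraph (Fin n)).copyCount F' : ℝ) * q ^ F'.edgeSet.ncard)
    (F : SimpleGraph (Fin v)) (hF : F.Connected) :
    (H.copyCount F : ℝ) ≤ ((⊤ : SimpleGraph (Fin n)).copyCount F : ℝ) *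
      (min 1 (24 * Real.exp (8 * n * q) * q)) ^ F.edgeSet.ncard := by
  have hmono : (H.copyCount F : ℝ) ≤ ((⊤ : SimpleGraph (Fin n)).copyCount F : ℝ) := by
    exact_mod_cast copyCount_mono' (le_top : H ≤ ⊤) F
  by_cases he : F.edgeSet.ncard = 0
  · rw [he, pow_zero, mul_one]
    exact hmono
  by_cases hL : 1 ≤ 24 * Real.exp (8 * n * q) * q
  · rw [min_eq_left hL, one_pow, mul_one]
    exact hmono
  · rw [not_le] at hL
    rw [min_eq_right hL.le]
    exact connected_count H q hq hyp F hF (Nat.one_le_iff_ne_zero.mpr he)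

end Vale.Agent.Helper8.KK
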