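import Vale.Agent.Helper8.KK.Half

/-!
The counting inequality for hosts of bounded maximum degree (helper8): if every vertex of `H`
has at most `D` neighbours, then every copy of a connected graph has at most `v D` further
edges of `H` at its vertex set, so one colouring of the edges with `2 D + 2` colours and the
plain packing give the inequality with the constant `C (D + 1)`, whatever `n q` is.
-/

namespace Vale.Agent.Helper8.KK

open Finset SimpleGraph

theorem card_bd_le {n : ℕ} (H : SimpleGraph (Fin n)) (D : ℕ)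
    (hD : ∀ u, (H.neighborSet u).ncard ≤ D) (τ : Finset (Fin n)) :
    (bd H τ).card ≤ τ.card * D := by
  classical
  have hsub : bd H τ ⊆ τ.biUnion
      (fun p => ((Finset.univ : Finset (Fin n)).filter (fun w => H.Adj p w)).image
        (fun w => s(p, w))) := by
    intro z hz
    induction z using Sym2.ind with
    | _ a b =>
      obtain ⟨hab, h⟩ := mem_bd.mp hz
      rw [Finset.mem_biUnion]
      rcases h with h | h
      · exact ⟨a, h, Finset.mem_image.mpr
          ⟨b, Finset.mem_filter.mpr ⟨Finset.mem_univ _, hab⟩, rfl⟩⟩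
      · exact ⟨b, h, Finset.mem_image.mpr
          ⟨a, Finset.mem_filter.mpr ⟨Finset.mem_univ _, hab.symm⟩, Sym2.eq_swap⟩⟩
  have hdeg : ∀ p : Fin n,
      ((Finset.univ : Finset (Fin n)).filter (fun w => H.Adj p w)).card ≤ D := by
    intro p
    have h := hD p
    have h2 : (H.neighborSet p).ncard
        = ((Finset.univ : Finset (Fin n)).filter (fun w => H.Adj p w)).card := by
      rw [← Set.ncard_coe_finset]
      congr 1
      ext w
      simp [SimpleGraph.mem_neighborSet]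
    omega
  calc (bd H τ).card
      ≤ (τ.biUnion (fun p => ((Finset.univ : Finset (Fin n)).filter
          (fun w => H.Adj p w)).image (fun w => s(p, w)))).card := Finset.card_le_card hsub
    _ ≤ ∑ p ∈ τ, (((Finset.univ : Finset (Fin n)).filter
          (fun w => H.Adj p w)).image (fun w => s(p, w))).card := Finset.card_biUnion_le
    _ ≤ ∑ _p ∈ τ, D := by
        apply Finset.sum_le_sum
        intro p _
        exact Finset.card_image_le.trans (hdeg p)
    _ = τ.card * D := by rw [Finset.sum_const, smul_eq_mul]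

theorem connected_count_maxdeg {n v : ℕ} (H : SimpleGraph (Fin n)) (D : ℕ)
    (hD : ∀ u, (H.neighborSet u).ncard ≤ D) (q : ℝ) (hq : 0 ≤ q)
    (hyp : ∀ F' : SimpleGraph (Fin n), F' ≤ H →
      1 ≤ ((⊤ : SimpleGraph (Fin n)).copyCount F' : ℝ) * q ^ F'.edgeSet.ncard)
    (F : SimpleGraph (Fin v)) (hF : F.Connected) (he : 1 ≤ F.edgeSet.ncard) :
    (H.copyCount F : ℝ) ≤ ((⊤ : SimpleGraph (Fin n)).copyCount F : ℝ) *
      (18 * ((D : ℝ) + 1) * q) ^ F.edgeSet.ncard := by
  classical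
  have hv : v ≤ F.edgeSet.ncard + 1 := by
    have h' := hF.card_vert_le_card_edgeSet_add_one
    rw [Nat.card_eq_fintype_card, Fintype.card_fin] at h'
    rw [_root_.Nat.card_coe_set_eq] at h'
    exact h'
  have h1 : (H.copyCount F : ℝ) ≤ ((pairs H F).card : ℝ) := by
    exact_mod_cast copyCount_le_card_pairs H F
  have h2 := copies_low_le H q hq hyp F hF he (2 * D + 1) (by omega) (pairs H F) (by
    intro x hx
    refine ⟨hx, ?_⟩
    have hb := card_bd_le H D hD x.1
    rw [pairCardFst H F x hx] at hb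
    have h4 : (bd H x.1).card ≤ (F.edgeSet.ncard + 1) * D :=
      hb.trans (Nat.mul_le_mul_right D hv)
    have h3 : D ≤ F.edgeSet.ncard * D := Nat.le_mul_of_pos_left D (by omega)
    have h5 : (F.edgeSet.ncard + 1) * D = F.edgeSet.ncard * D + D := by ring
    have h6 : (2 * D + 1) * F.edgeSet.ncard = 2 * (F.edgeSet.ncard * D) + F.edgeSet.ncard := by
      ring
    linarith)
  have hN : (0:ℝ) ≤ ((⊤ : SimpleGraph (Fin n)).copyCount F : ℝ) := Nat.cast_nonneg _
  have hD0 : (0:ℝ) ≤ (D : ℝ) := Nat.cast_nonneg _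
  have h3 : (3:ℝ) ≤ 3 ^ F.edgeSet.ncard := by
    calc (3:ℝ) = 3 ^ 1 := (pow_one _).symm
      _ ≤ 3 ^ F.edgeSet.ncard := pow_le_pow_right₀ (by norm_num) he
  have hcast : (3 * (((2 * D + 1 : ℕ) : ℝ) + 1)) = 6 * ((D : ℝ) + 1) := by
    push_cast
    ring
  rw [hcast] at h2
  have hpow : (18 * ((D : ℝ) + 1) * q) ^ F.edgeSet.ncard
      = 3 ^ F.edgeSet.ncard * ((6 * ((D : ℝ) + 1)) ^ F.edgeSet.ncard * q ^ F.edgeSet.ncard) := by
    rw [← mul_pow, ← mul_pow]
    congr 1
    ring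
  have hp : (0:ℝ) ≤ (6 * ((D : ℝ) + 1)) ^ F.edgeSet.ncard * q ^ F.edgeSet.ncard := by positivity
  calc (H.copyCount F : ℝ) ≤ ((pairs H F).card : ℝ) := h1
    _ ≤ (6 * ((D : ℝ) + 1)) ^ F.edgeSet.ncard *
          (3 * ((⊤ : SimpleGraph (Fin n)).copyCount F : ℝ) * q ^ F.edgeSet.ncard) := h2
    _ = ((⊤ : SimpleGraph (Fin n)).copyCount F : ℝ) *
          (3 * ((6 * ((D : ℝ) + 1)) ^ F.edgeSet.ncard * q ^ F.edgeSet.ncard)) := by ring
    _ ≤ ((⊤ : SimpleGraph (Fin n)).copyCount F : ℝ) *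
          (3 ^ F.edgeSet.ncard *
            ((6 * ((D : ℝ) + 1)) ^ F.edgeSet.ncard * q ^ F.edgeSet.ncard)) := by
        apply mul_le_mul_of_nonneg_left _ hN
        exact mul_le_mul_of_nonneg_right h3 hp
    _ = ((⊤ : SimpleGraph (Fin n)).copyCount F : ℝ) *
          (18 * ((D : ℝ) + 1) * q) ^ F.edgeSet.ncard := by rw [hpow]

/-- Hosts of maximum degree at most `D`: the counting inequality for every graph `F` with the
constant `134 (D + 1)`. -/
theorem all_graphs_maxdeg {n : ℕ} (H : SimpleGraph (Fin n)) (D : ℕ)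
    (hD : ∀ u, (H.neighborSet u).ncard ≤ D) (q : ℝ) (hq : 0 ≤ q)
    (hyp : ∀ F' : SimpleGraph (Fin n), F' ≤ H →
      1 ≤ ((⊤ : SimpleGraph (Fin n)).copyCount F' : ℝ) * q ^ F'.edgeSet.ncard)
    {v : ℕ} (F : SimpleGraph (Fin v)) :
    (H.copyCount F : ℝ) ≤ ((⊤ : SimpleGraph (Fin n)).copyCount F : ℝ) *
      (min 1 (134 * ((D : ℝ) + 1) * q)) ^ F.edgeSet.ncard := by
  have hD0 : (0:ℝ) ≤ (D : ℝ) := Nat.cast_nonneg _
  have hc0 : (0:ℝ) ≤ 18 * ((D : ℝ) + 1) * q := by positivity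
  have h3 := Vale.Agent.Helper25.KKIsolated.all_graphs_any_general H
    (18 * ((D : ℝ) + 1) * q) hc0
    (fun w G hG he => connected_count_maxdeg H D hD q hq hyp G hG he) F
  have hexp : Real.exp 2 * (18 * ((D : ℝ) + 1) * q) ≤ 134 * ((D : ℝ) + 1) * q := by
    have h24 := Vale.Agent.Helper25.KKAllGraphs.exp_two_mul_le
    have hpos : (0:ℝ) ≤ ((D : ℝ) + 1) * q := by positivity
    nlinarith
  refine h3.trans ?_
  apply mul_le_mul_of_nonneg_left _ (Nat.cast_nonneg _)
  have h0 : (0:ℝ) ≤ min 1 (Real.exp 2 * (18 * ((D : ℝ) + 1) * q)) := by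
    apply le_min zero_le_one
    positivity
  exact pow_le_pow_left₀ h0 (min_le_min le_rfl hexp) _

/-- The same with the expected counts bounded below by one half at density `p`. -/
theorem all_graphs_maxdeg_half {n : ℕ} (H : SimpleGraph (Fin n)) (D : ℕ)
    (hD : ∀ u, (H.neighborSet u).ncard ≤ D) (p : ℝ) (hp : 0 ≤ p)
    (hyp : ∀ F' : SimpleGraph (Fin n), F' ≤ H →
      1 / 2 ≤ ((⊤ : SimpleGraph (Fin n)).copyCount F' : ℝ) * p ^ F'.edgeSet.ncard)
    {v : ℕ} (F : SimpleGraph (Fin v)) :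
    (H.copyCount F : ℝ) ≤ ((⊤ : SimpleGraph (Fin n)).copyCount F : ℝ) *
      (min 1 (268 * ((D : ℝ) + 1) * p)) ^ F.edgeSet.ncard := by
  have h2p : (0:ℝ) ≤ 2 * p := by positivity
  have h1 := all_graphs_maxdeg H D hD (2 * p) h2p (hyp_of_half H p hp hyp) F
  have hD0 : (0:ℝ) ≤ (D : ℝ) := Nat.cast_nonneg _
  have heq : 134 * ((D : ℝ) + 1) * (2 * p) = 268 * ((D : ℝ) + 1) * p := by ring
  rw [heq] at h1
  exact h1

end Vale.Agent.Helper8.KK

namespace Vale.Agent.Helper8.KK

open SimpleGraph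

/-- The linear bound and the maximum degree bound in one statement, at the threshold `1/2`. -/
theorem all_graphs_half_min {n : ℕ} (H : SimpleGraph (Fin n)) (D : ℕ)
    (hD : ∀ u, (H.neighborSet u).ncard ≤ D) (p : ℝ) (hp : 0 ≤ p)
    (hyp : ∀ F' : SimpleGraph (Fin n), F' ≤ H →
      1 / 2 ≤ ((⊤ : SimpleGraph (Fin n)).copyCount F' : ℝ) * p ^ F'.edgeSet.ncard)
    {v : ℕ} (F : SimpleGraph (Fin v)) :
    (H.copyCount F : ℝ) ≤ ((⊤ : SimpleGraph (Fin n)).copyCount F : ℝ) *
      (min 1 (76896 * (1 + min ((n : ℝ) * p) (D : ℝ)) * p)) ^ F.edgeSet.ncard := by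
  rcases le_total ((n : ℝ) * p) (D : ℝ) with h | h
  · rw [min_eq_left h]
    exact all_graphs_half H p hp hyp F
  · rw [min_eq_right h]
    have h1 := all_graphs_maxdeg_half H D hD p hp hyp F
    have hD0 : (0:ℝ) ≤ (D : ℝ) := Nat.cast_nonneg _
    refine h1.trans ?_
    apply mul_le_mul_of_nonneg_left _ (Nat.cast_nonneg _)
    have h0 : (0:ℝ) ≤ min 1 (268 * ((D : ℝ) + 1) * p) := by
      apply le_min zero_le_one
      positivity
    have hle : 268 * ((D : ℝ) + 1) * p ≤ 76896 * (1 + (D : ℝ)) * p := by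
      have hpos : (0:ℝ) ≤ ((D : ℝ) + 1) * p := by positivity
      nlinarith
    exact pow_le_pow_left₀ h0 (min_le_min le_rfl hle) _

end Vale.Agent.Helper8.KK
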