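import Vale.Agent.Helper8.KK.Poly
import Vale.Agent.Helper23.KKAveragingIdx
import Vale.Agent.Helper16.KKGood

/-!
The counting inequality for connected graphs with a constant linear in `n q` (helper8):
colourings of the edges, counting copies instead of vertex sets.
-/

namespace Vale.Agent.Helper8.KK

open Finset SimpleGraph

theorem tail_term2 (e v n s : ℕ) (q : ℝ) (hq : 0 ≤ q) (hs : 16 * ((v:ℝ) * n * q) ≤ s) :
    (2:ℝ)^(e+s) * ((2:ℝ)^(v+s) * (((v:ℝ)*n*q)^s / s.factorial)) ≤ 2^(e+v) * (3/4:ℝ)^s := by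
  have hfpos : (0:ℝ) < s.factorial := by exact_mod_cast Nat.factorial_pos s
  have hy0 : (0:ℝ) ≤ (v:ℝ)*n*q := by positivity
  have hy : (v:ℝ)*n*q ≤ (s:ℝ) / 16 := by linarith
  have h2 : ((v:ℝ)*n*q)^s ≤ ((s:ℝ)/16)^s := pow_le_pow_left₀ hy0 hy s
  have h3 := pow_self_le' s
  have h4 : ((v:ℝ)*n*q)^s / s.factorial ≤ (3/16:ℝ)^s := by
    rw [div_le_iff₀ hfpos]
    calc ((v:ℝ)*n*q)^s ≤ ((s:ℝ)/16)^s := h2
      _ = (s:ℝ)^s / 16^s := by rw [div_pow]
      _ ≤ (3^s * s.factorial) / 16^s := by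
          apply div_le_div_of_nonneg_right h3 (by positivity)
      _ = (3/16:ℝ)^s * s.factorial := by rw [div_pow]; ring
  calc (2:ℝ)^(e+s) * ((2:ℝ)^(v+s) * (((v:ℝ)*n*q)^s / s.factorial))
      ≤ (2:ℝ)^(e+s) * ((2:ℝ)^(v+s) * (3/16:ℝ)^s) := by
        apply mul_le_mul_of_nonneg_left _ (by positivity)
        exact mul_le_mul_of_nonneg_left h4 (by positivity)
    _ = 2^(e+v) * (3/4:ℝ)^s := by
        have h5 : (3/4:ℝ)^s = 2^s * (2^s * (3/16:ℝ)^s) := by
          rw [← mul_pow, ← mul_pow]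
          norm_num
        rw [h5, pow_add, pow_add, pow_add]
        ring

/-- Copies of small excess: the bound from one colouring of the edges with `K + 1`
colours and the plain packing. -/
theorem copies_low_le {n v : ℕ} (H : SimpleGraph (Fin n)) (q : ℝ) (hq : 0 ≤ q)
    (hyp : ∀ F' : SimpleGraph (Fin n), F' ≤ H →
      1 ≤ ((⊤ : SimpleGraph (Fin n)).copyCount F' : ℝ) * q ^ F'.edgeSet.ncard)
    (F : SimpleGraph (Fin v)) (hF : F.Connected) (he : 1 ≤ F.edgeSet.ncard) (K : ℕ)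
    (hK : 1 ≤ K) (CC : Finset (Finset (Fin n) × Finset (Sym2 (Fin n))))
    (hCC : ∀ x ∈ CC, x ∈ pairs H F ∧
      (bd H x.1).card ≤ F.edgeSet.ncard + K * F.edgeSet.ncard) :
    (CC.card : ℝ) ≤ (3 * ((K : ℝ) + 1)) ^ F.edgeSet.ncard *
      (3 * ((⊤ : SimpleGraph (Fin n)).copyCount F : ℝ) * q ^ F.edgeSet.ncard) := by
  classical
  have hv1 : 1 ≤ v := by
    obtain ⟨a⟩ := hF.nonempty
    exact Nat.one_le_iff_ne_zero.mpr (fun h0 => by subst h0; exact a.elim0)
  apply Vale.Agent.Helper23.KKAveraging.averaging_idx (α := Sym2 (Fin n)) K F.edgeSet.ncard hK CC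
    (fun x => x.2) (fun x => bd H x.1 \ x.2)
  · intro x _
    exact Finset.disjoint_sdiff
  · intro x hx
    exact pairCardSnd H F x (hCC x hx).1
  · intro x hx
    obtain ⟨hxP, hxb⟩ := hCC x hx
    have h1 := Finset.card_sdiff_add_card_eq_card (pairSndSubset H F x hxP)
    have h2 := pairCardSnd H F x hxP
    omega
  · intro R DD hDD hgood
    have hinj : Set.InjOn Prod.fst (DD : Set (Finset (Fin n) × Finset (Sym2 (Fin n)))) := by
      intro x hx y hy hxy
      by_contra hne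
      have hx' := Finset.mem_coe.mp hx
      have hy' := Finset.mem_coe.mp hy
      have hd := good_copies_disjoint H F hF R x y (hCC x (hDD hx')).1 (hCC y (hDD hy')).1
        (hgood x hx') (hgood y hy').1 hne
      rw [hxy] at hd
      have hempty : y.1 = ∅ := by simpa using hd
      have hc := pairCardFst H F y (hCC y (hDD hy')).1
      rw [hempty, Finset.card_empty] at hc
      omega
    have hcard : (DD.image Prod.fst).card = DD.card := Finset.card_image_of_injOn hinj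
    rw [← hcard]
    apply Vale.Agent.Helper25.KKPlain.packing_plain H F q hq hyp F.edgeSet.ncard rfl he
    · intro τ hτ
      rw [Finset.mem_image] at hτ
      obtain ⟨x, hx, rfl⟩ := hτ
      exact ⟨x.2, (hCC x (hDD hx)).1⟩
    · intro τ hτ τ' hτ' hne
      rw [Finset.mem_image] at hτ hτ'
      obtain ⟨x, hx, rfl⟩ := hτ
      obtain ⟨y, hy, rfl⟩ := hτ'
      have hxy : x ≠ y := fun h => hne (by rw [h])
      exact good_copies_disjoint H F hF R x y (hCC x (hDD hx)).1 (hCC y (hDD hy)).1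
        (hgood x hx) (hgood y hy).1 hxy

theorem connected_count_linear {n v : ℕ} (H : SimpleGraph (Fin n)) (q : ℝ) (hq : 0 ≤ q)
    (hyp : ∀ F' : SimpleGraph (Fin n), F' ≤ H →
      1 ≤ ((⊤ : SimpleGraph (Fin n)).copyCount F' : ℝ) * q ^ F'.edgeSet.ncard)
    (F : SimpleGraph (Fin v)) (hF : F.Connected) (he : 1 ≤ F.edgeSet.ncard) :
    (H.copyCount F : ℝ) ≤ 27 * ((⊤ : SimpleGraph (Fin n)).copyCount F : ℝ) *
      q ^ F.edgeSet.ncard * (96 * (1 + (n:ℝ) * q)) ^ F.edgeSet.ncard := by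
  classical
  set e := F.edgeSet.ncard with he_def
  set N : ℝ := ((⊤ : SimpleGraph (Fin n)).copyCount F : ℝ) with hN_def
  set P := pairs H F with hP_def
  set M := H.edgeFinset.card + 1 with hM_def
  set K := ⌈32 * ((n:ℝ) * q)⌉₊ + 1 with hK_def
  have hN0 : (0:ℝ) ≤ N := Nat.cast_nonneg _
  have hnq0 : (0:ℝ) ≤ (n:ℝ) * q := by positivity
  have hK1 : 1 ≤ K := by omega
  have hK32 : 32 * ((n:ℝ) * q) ≤ (K : ℝ) := by
    have h := Nat.le_ceil (32 * ((n:ℝ) * q))
    rw [hK_def]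
    push_cast
    linarith
  have hKb : (K : ℝ) + 1 ≤ 32 * ((n:ℝ) * q) + 3 := by
    have h := Nat.ceil_lt_add_one (show (0:ℝ) ≤ 32 * ((n:ℝ) * q) by positivity)
    rw [hK_def]
    push_cast
    linarith
  have hv : v ≤ e + 1 := by
    have h' := hF.card_vert_le_card_edgeSet_add_one
    rw [Nat.card_eq_fintype_card, Fintype.card_fin] at h'
    rw [_root_.Nat.card_coe_set_eq] at h'
    exact h'
  have h1 : (H.copyCount F : ℝ) ≤ (P.card : ℝ) := by
    exact_mod_cast copyCount_le_card_pairs H F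
  set CL := P.filter (fun x => (bd H x.1).card ≤ e + K * e) with hCL_def
  set CH := P \ CL with hCH_def
  have hsplit : P.card = CL.card + CH.card := by
    have h : (P \ CL).card + CL.card = P.card :=
      Finset.card_sdiff_add_card_eq_card (Finset.filter_subset _ P)
    rw [hCH_def, ← h, Nat.add_comm]
  have hCHmem : ∀ x ∈ CH, x ∈ P ∧ e + K * e < (bd H x.1).card := by
    intro x hx
    rw [hCH_def, Finset.mem_sdiff] at hx
    refine ⟨hx.1, ?_⟩
    by_contra hc
    exact hx.2 (Finset.mem_filter.mpr ⟨hx.1, not_lt.mp hc⟩)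
  have hlow : (CL.card : ℝ) ≤ (3 * ((K : ℝ) + 1)) ^ e * (3 * N * q ^ e) := by
    apply copies_low_le H q hq hyp F hF he K hK1 CL
    intro x hx
    rw [hCL_def, Finset.mem_filter] at hx
    exact hx
  -- the high part
  have hbd_le : ∀ τ, (bd H τ).card < M := by
    intro τ
    have h : (bd H τ).card ≤ H.edgeFinset.card := by
      apply Finset.card_le_card
      unfold bd
      exact Finset.filter_subset _ _
    omega
  set VH := CH.image Prod.fst with hVH_def
  set SS : Finset ℕ := (range M).filter (fun s => K * e < s) with hSS_def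
  have hVH : ∀ τ ∈ VH, (∃ E, (τ, E) ∈ pairs H F) ∧ e + K * e < (bd H τ).card := by
    intro τ hτ
    rw [hVH_def, Finset.mem_image] at hτ
    obtain ⟨x, hx, rfl⟩ := hτ
    exact ⟨⟨x.2, (hCHmem x hx).1⟩, (hCHmem x hx).2⟩
  have h2 : CH.card = ∑ τ ∈ VH, (CH.filter (fun x => x.1 = τ)).card :=
    Finset.card_eq_sum_card_image Prod.fst CH
  have h3 : ∀ τ ∈ VH, (CH.filter (fun x => x.1 = τ)).card ≤ 2 ^ (bd H τ).card := by
    intro τ _
    apply fiberCardLe H F τ
    intro x hx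
    rw [Finset.mem_filter] at hx
    exact ⟨(hCHmem x hx.1).1, hx.2⟩
  have h4 : ∑ τ ∈ VH, 2 ^ (bd H τ).card
      = ∑ s ∈ SS, (VH.filter (fun τ => (bd H τ).card = e + s)).card * 2 ^ (e + s) := by
    rw [← Finset.sum_fiberwise_of_maps_to (g := fun τ => (bd H τ).card - e) (t := SS)]
    · apply Finset.sum_congr rfl
      intro s _
      have hfil : VH.filter (fun τ => (bd H τ).card - e = s)
          = VH.filter (fun τ => (bd H τ).card = e + s) := by
        apply Finset.filter_congr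
        intro τ hτ
        have := (hVH τ hτ).2
        omega
      rw [hfil, Finset.card_eq_sum_ones, Finset.sum_mul]
      apply Finset.sum_congr rfl
      intro τ hτ
      rw [Finset.mem_filter] at hτ
      rw [hτ.2, one_mul]
    · intro τ hτ
      rw [hSS_def, Finset.mem_filter, Finset.mem_range]
      have h1 := (hVH τ hτ).2
      have h2 := hbd_le τ
      constructor <;> omega
  have hlev : ∀ s ∈ SS, ((VH.filter (fun τ => (bd H τ).card = e + s)).card : ℝ) * 2 ^ (e + s)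
      ≤ 3 * N * q ^ e * (2 ^ (e + v) * (3/4:ℝ) ^ s) := by
    intro s hs
    rw [hSS_def, Finset.mem_filter] at hs
    have h := card_level_le H q hq hyp F hF he s
      (VH.filter (fun τ => (bd H τ).card = e + s)) (by
        intro τ hτ
        rw [Finset.mem_filter] at hτ
        exact ⟨(hVH τ hτ.1).1, hτ.2⟩)
    have hs16 : 16 * ((v:ℝ) * n * q) ≤ (s:ℝ) := by
      have h1 : ((K * e : ℕ) : ℝ) ≤ (s : ℝ) := by exact_mod_cast hs.2.le
      have h2 : (v:ℝ) ≤ 2 * (e:ℝ) := by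
        have : v ≤ 2 * e := by omega
        exact_mod_cast this
      have h3 : (0:ℝ) ≤ (e:ℝ) := Nat.cast_nonneg e
      push_cast at h1
      nlinarith
    have ht := tail_term2 e v n s q hq hs16
    have hc : (0:ℝ) ≤ 3 * N * q ^ e := by positivity
    calc ((VH.filter (fun τ => (bd H τ).card = e + s)).card : ℝ) * 2 ^ (e + s)
        ≤ (2 ^ (v + s) * (3 * N * q ^ e * (((v:ℝ) * n * q) ^ s / s.factorial))) * 2 ^ (e + s) :=
          mul_le_mul_of_nonneg_right h (by positivity)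
      _ = 3 * N * q ^ e *
            ((2:ℝ) ^ (e + s) * ((2:ℝ) ^ (v + s) * (((v:ℝ) * n * q) ^ s / s.factorial))) := by ring
      _ ≤ 3 * N * q ^ e * (2 ^ (e + v) * (3/4:ℝ) ^ s) := mul_le_mul_of_nonneg_left ht hc
  have hhigh : (CH.card : ℝ) ≤ 3 * N * q ^ e * (2 ^ (e + v) * 4) := by
    have hc : (0:ℝ) ≤ 3 * N * q ^ e * 2 ^ (e + v) := by positivity
    calc (CH.card : ℝ) = ∑ τ ∈ VH, ((CH.filter (fun x => x.1 = τ)).card : ℝ) := by
          rw [h2]; push_cast; rfl
      _ ≤ ∑ τ ∈ VH, (2:ℝ) ^ (bd H τ).card := by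
          apply Finset.sum_le_sum
          intro τ hτ
          exact_mod_cast h3 τ hτ
      _ = ∑ s ∈ SS, ((VH.filter (fun τ => (bd H τ).card = e + s)).card : ℝ) * 2 ^ (e + s) := by
          exact_mod_cast h4
      _ ≤ ∑ s ∈ SS, 3 * N * q ^ e * (2 ^ (e + v) * (3/4:ℝ) ^ s) := Finset.sum_le_sum hlev
      _ = 3 * N * q ^ e * 2 ^ (e + v) * ∑ s ∈ SS, (3/4:ℝ) ^ s := by
          rw [Finset.mul_sum]
          apply Finset.sum_congr rfl
          intro s _
          ring
      _ ≤ 3 * N * q ^ e * 2 ^ (e + v) * ∑ s ∈ range M, (3/4:ℝ) ^ s := by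
          apply mul_le_mul_of_nonneg_left _ hc
          apply Finset.sum_le_sum_of_subset_of_nonneg (Finset.filter_subset _ _)
          intro s _ _
          positivity
      _ ≤ 3 * N * q ^ e * 2 ^ (e + v) * 4 := mul_le_mul_of_nonneg_left (tail_sum M) hc
      _ = 3 * N * q ^ e * (2 ^ (e + v) * 4) := by ring
  -- final arithmetic
  have hbase : 3 * ((K : ℝ) + 1) ≤ 96 * (1 + (n:ℝ) * q) := by linarith
  have hbase0 : (0:ℝ) ≤ 3 * ((K : ℝ) + 1) := by
    have : (1:ℝ) ≤ (K : ℝ) := by exact_mod_cast hK1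
    linarith
  have hpw : (3 * ((K : ℝ) + 1)) ^ e ≤ (96 * (1 + (n:ℝ) * q)) ^ e :=
    pow_le_pow_left₀ hbase0 hbase e
  have h2ev : (2:ℝ) ^ (e + v) ≤ 2 * (96 * (1 + (n:ℝ) * q)) ^ e := by
    have h1 : (2:ℝ) ^ (e + v) ≤ 2 ^ (e + (e + 1)) := pow_le_pow_right₀ (by norm_num) (by omega)
    have h2 : (2:ℝ) ^ (e + (e + 1)) = 2 * 4 ^ e := by
      have h44 : (4:ℝ) ^ e = 2 ^ e * 2 ^ e := by rw [← mul_pow]; norm_num
      rw [pow_add, pow_succ, h44]; ring
    have h3 : (4:ℝ) ^ e ≤ (96 * (1 + (n:ℝ) * q)) ^ e :=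
      pow_le_pow_left₀ (by norm_num) (by linarith) e
    linarith
  have hc : (0:ℝ) ≤ N * q ^ e := by positivity
  have hPc : (P.card : ℝ) = (CL.card : ℝ) + (CH.card : ℝ) := by exact_mod_cast hsplit
  calc (H.copyCount F : ℝ) ≤ (P.card : ℝ) := h1
    _ = (CL.card : ℝ) + (CH.card : ℝ) := hPc
    _ ≤ (3 * ((K : ℝ) + 1)) ^ e * (3 * N * q ^ e) + 3 * N * q ^ e * (2 ^ (e + v) * 4) :=
        add_le_add hlow hhigh
    _ = N * q ^ e * (3 * (3 * ((K : ℝ) + 1)) ^ e + 12 * 2 ^ (e + v)) := by ring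
    _ ≤ N * q ^ e * (27 * (96 * (1 + (n:ℝ) * q)) ^ e) := by
        apply mul_le_mul_of_nonneg_left _ hc
        linarith
    _ = 27 * N * q ^ e * (96 * (1 + (n:ℝ) * q)) ^ e := by ring

end Vale.Agent.Helper8.KK
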