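import Vale.Agent.Helper23.KKPairs
import Vale.Agent.Helper8.KK.Arith

namespace Vale.Agent.Helper8.KK

open Finset SimpleGraph

open Classical in
lemma prFst {n v : ℕ} (F : SimpleGraph (Fin v)) (f : Fin v → Fin n) :
    (pr F f).1 = (Finset.univ : Finset (Fin v)).image f := rfl

open Classical in
lemma prSnd {n v : ℕ} (F : SimpleGraph (Fin v)) (f : Fin v → Fin n) :
    (pr F f).2 = F.edgeFinset.image (Sym2.map f) := rfl

lemma mem_pairs {n v : ℕ} {G : SimpleGraph (Fin n)} {F : SimpleGraph (Fin v)}
    {x : Finset (Fin n) × Finset (Sym2 (Fin n))} :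
    x ∈ pairs G F ↔ ∃ f : Fin v → Fin n, Function.Injective f ∧
      (∀ a b, F.Adj a b → G.Adj (f a) (f b)) ∧ pr F f = x := by
  classical
  unfold pairs
  simp only [Finset.mem_image, Finset.mem_filter, Finset.mem_univ, true_and, and_assoc]

/-- The edges of the complete graph meeting `τ` (degenerate pairs allowed). -/
noncomputable def inc {n : ℕ} (τ : Finset (Fin n)) : Finset (Sym2 (Fin n)) := by
  classical
  exact (τ ×ˢ (Finset.univ : Finset (Fin n))).image (fun p => s(p.1, p.2))

lemma card_inc_le {n : ℕ} (τ : Finset (Fin n)) : (inc τ).card ≤ τ.card * n := by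
  classical
  unfold inc
  refine Finset.card_image_le.trans ?_
  rw [Finset.card_product, Finset.card_univ, Fintype.card_fin]

lemma mem_inc {n : ℕ} {τ : Finset (Fin n)} {a b : Fin n} (h : a ∈ τ ∨ b ∈ τ) :
    s(a, b) ∈ inc τ := by
  classical
  unfold inc
  rw [Finset.mem_image]
  rcases h with h | h
  · exact ⟨(a, b), by simp [h], rfl⟩
  · exact ⟨(b, a), by simp [h], Sym2.eq_swap⟩

/-- The graph formed by the edges of `H` meeting `U`. -/
def sat {n : ℕ} (H : SimpleGraph (Fin n)) (U : Finset (Fin n)) : SimpleGraph (Fin n) where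
  Adj a b := H.Adj a b ∧ (a ∈ U ∨ b ∈ U)
  symm := ⟨fun _ _ h => ⟨h.1.symm, h.2.symm⟩⟩
  loopless := ⟨fun a h => H.loopless.irrefl a h.1⟩

lemma sat_le {n : ℕ} (H : SimpleGraph (Fin n)) (U : Finset (Fin n)) : sat H U ≤ H :=
  fun _ _ h => h.1

open Classical in
lemma mem_bd {n : ℕ} {H : SimpleGraph (Fin n)} {τ : Finset (Fin n)} {a b : Fin n} :
    s(a, b) ∈ bd H τ ↔ H.Adj a b ∧ (a ∈ τ ∨ b ∈ τ) := by
  unfold bd
  simp only [Finset.mem_filter, mem_edgeFinset, mem_edgeSet, Sym2.mem_iff]
  constructor
  · rintro ⟨hab, p, hp, (rfl | rfl)⟩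
    · exact ⟨hab, Or.inl hp⟩
    · exact ⟨hab, Or.inr hp⟩
  · rintro ⟨hab, (h | h)⟩
    · exact ⟨hab, a, h, Or.inl rfl⟩
    · exact ⟨hab, b, h, Or.inr rfl⟩

open Classical in
lemma sat_edgeFinset {n : ℕ} (H : SimpleGraph (Fin n)) (D : Finset (Finset (Fin n))) :
    (sat H (D.biUnion id)).edgeFinset = D.biUnion (bd H) := by
  ext z
  induction z using Sym2.ind with
  | _ a b =>
    rw [mem_edgeFinset, mem_edgeSet, Finset.mem_biUnion]
    simp only [sat, Finset.mem_biUnion, id, mem_bd]
    constructor
    · rintro ⟨hab, (⟨τ, hτ, ha⟩ | ⟨τ, hτ, hb⟩)⟩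
      · exact ⟨τ, hτ, hab, Or.inl ha⟩
      · exact ⟨τ, hτ, hab, Or.inr hb⟩
    · rintro ⟨τ, hτ, hab, (hp | hp)⟩
      · exact ⟨hab, Or.inl ⟨τ, hτ, hp⟩⟩
      · exact ⟨hab, Or.inr ⟨τ, hτ, hp⟩⟩

lemma bd_disjoint {n : ℕ} {H : SimpleGraph (Fin n)} {τ τ' : Finset (Fin n)} (h : Far H τ τ') :
    Disjoint (bd H τ) (bd H τ') := by
  classical
  rw [Finset.disjoint_left]
  intro z hz hz'
  induction z using Sym2.ind with
  | _ a b =>
    rw [mem_bd] at hz hz'
    obtain ⟨hab, hp⟩ := hz
    obtain ⟨-, hp'⟩ := hz'
    have hd := Finset.disjoint_left.mp h.1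
    rcases hp with hp | hp <;> rcases hp' with hp' | hp'
    · exact hd hp hp'
    · exact h.2 _ hp _ hp' hab
    · exact h.2 _ hp _ hp' hab.symm
    · exact hd hp hp'


lemma ncard_edgeSet_eq {W : Type*} [Fintype W] (G : SimpleGraph W) [Fintype G.edgeSet] :
    G.edgeSet.ncard = G.edgeFinset.card := by
  rw [← Set.ncard_coe_finset, coe_edgeFinset]

lemma card_sat_edges {n : ℕ} (H : SimpleGraph (Fin n)) (D : Finset (Finset (Fin n)))
    (hfar : ∀ τ ∈ D, ∀ τ' ∈ D, τ ≠ τ' → Far H τ τ') (m : ℕ)
    (hs : ∀ τ ∈ D, (bd H τ).card = m) :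
    (sat H (D.biUnion id)).edgeSet.ncard = D.card * m := by
  classical
  rw [ncard_edgeSet_eq, sat_edgeFinset, Finset.card_biUnion]
  · rw [Finset.sum_congr rfl hs, Finset.sum_const, smul_eq_mul]
  · intro τ hτ τ' hτ' hne
    exact bd_disjoint (hfar τ hτ τ' hτ' hne)

/-- All edge sets of the form (edge set of a copy of `F` in the complete graph) together
with `s` further edges meeting its vertex set. -/
noncomputable def zset {n v : ℕ} (F : SimpleGraph (Fin v)) (s : ℕ) :
    Finset (Finset (Sym2 (Fin n))) := by
  classical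
  exact (pairs (⊤ : SimpleGraph (Fin n)) F).biUnion
    (fun x => ((inc x.1).powersetCard s).image (fun P => x.2 ∪ P))

lemma card_zset_le {n v : ℕ} (F : SimpleGraph (Fin v)) (s : ℕ) :
    (zset (n := n) F s).card ≤ (⊤ : SimpleGraph (Fin n)).copyCount F * (v * n).choose s := by
  classical
  unfold zset
  refine Finset.card_biUnion_le.trans ?_
  calc ∑ x ∈ pairs (⊤ : SimpleGraph (Fin n)) F,
          (((inc x.1).powersetCard s).image (fun P => x.2 ∪ P)).card
      ≤ ∑ _x ∈ pairs (⊤ : SimpleGraph (Fin n)) F, (v * n).choose s := by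
        apply Finset.sum_le_sum
        intro x hx
        refine Finset.card_image_le.trans ?_
        rw [Finset.card_powersetCard]
        apply Nat.choose_le_choose
        refine (card_inc_le x.1).trans ?_
        apply Nat.mul_le_mul_right
        obtain ⟨f, -, -, rfl⟩ := mem_pairs.mp hx
        rw [prFst]
        refine Finset.card_image_le.trans ?_
        simp
    _ = (pairs (⊤ : SimpleGraph (Fin n)) F).card * (v * n).choose s := by
        rw [Finset.sum_const, smul_eq_mul]
    _ ≤ _ := Nat.mul_le_mul_right _ (card_pairs_le_copyCount ⊤ F)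

/-- **Packing lemma.**  Pairwise far apart vertex sets of copies of `F` in `H`, all with
`e + s` edges of `H` meeting them, are few. -/
theorem packing {n v : ℕ} (H : SimpleGraph (Fin n)) (F : SimpleGraph (Fin v)) (q : ℝ)
    (hq : 0 ≤ q)
    (hyp : ∀ F' : SimpleGraph (Fin n), F' ≤ H →
        1 ≤ ((⊤ : SimpleGraph (Fin n)).copyCount F' : ℝ) * q ^ F'.edgeSet.ncard)
    (e s : ℕ) (he : F.edgeSet.ncard = e) (he1 : 1 ≤ e)
    (D : Finset (Finset (Fin n)))
    (hD : ∀ τ ∈ D, ∃ E, (τ, E) ∈ pairs H F)
    (hfar : ∀ τ ∈ D, ∀ τ' ∈ D, τ ≠ τ' → Far H τ τ')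
    (hs : ∀ τ ∈ D, (bd H τ).card = e + s) :
    (D.card : ℝ) ≤ 3 * ((⊤ : SimpleGraph (Fin n)).copyCount F : ℝ) * q ^ e *
      (((v : ℝ) * n * q) ^ s / s.factorial) := by
  classical
  rcases Nat.eq_zero_or_pos D.card with h0 | hpos
  · rw [h0]
    simp only [Nat.cast_zero]
    positivity
  have heF : F.edgeFinset.card = e := by rw [← ncard_edgeSet_eq]; exact he
  have hedges : (sat H (D.biUnion id)).edgeSet.ncard = D.card * (e + s) :=
    card_sat_edges H D hfar (e + s) hs
  have h1 := hyp (sat H (D.biUnion id)) (sat_le H _)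
  rw [hedges] at h1
  have hcc : (⊤ : SimpleGraph (Fin n)).copyCount (sat H (D.biUnion id))
      ≤ ((zset (n := n) F s).card).choose D.card := by
    refine (copyCount_le_card_pairs ⊤ (sat H (D.biUnion id))).trans ?_
    rw [← Finset.card_powersetCard]
    let h : Finset (Finset (Sym2 (Fin n))) → Finset (Fin n) × Finset (Sym2 (Fin n)) :=
      fun S => (Finset.univ, S.biUnion id)
    have hsub : pairs (⊤ : SimpleGraph (Fin n)) (sat H (D.biUnion id))
        ⊆ ((zset (n := n) F s).powersetCard D.card).image h := by
      intro x hx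
      obtain ⟨φ, hφ, -, rfl⟩ := mem_pairs.mp hx
      have hφ2 : Function.Injective (Sym2.map φ) := Sym2.map.injective hφ
      rw [Finset.mem_image]
      refine ⟨D.image (fun τ => (bd H τ).image (Sym2.map φ)), ?_, ?_⟩
      · rw [Finset.mem_powersetCard]
        constructor
        · intro P hP
          rw [Finset.mem_image] at hP
          obtain ⟨τ, hτ, rfl⟩ := hP
          obtain ⟨E, hE⟩ := hD τ hτ
          obtain ⟨f, hf, hhom, hpr⟩ := mem_pairs.mp hE
          have hτf : τ = (Finset.univ : Finset (Fin v)).image f := by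
            have := congrArg Prod.fst hpr
            rw [prFst] at this
            exact this.symm
          have hEf : E = F.edgeFinset.image (Sym2.map f) := by
            have := congrArg Prod.snd hpr
            rw [prSnd] at this
            exact this.symm
          have hEsub : E ⊆ bd H τ := by
            intro z hz
            rw [hEf, Finset.mem_image] at hz
            obtain ⟨z', hz', rfl⟩ := hz
            induction z' using Sym2.ind with
            | _ a b =>
              rw [mem_edgeFinset, mem_edgeSet] at hz'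
              rw [Sym2.map_mk, mem_bd]
              refine ⟨hhom a b hz', Or.inl ?_⟩
              rw [hτf]
              exact Finset.mem_image_of_mem f (Finset.mem_univ a)
          have hEcard : E.card = e := by
            rw [hEf, Finset.card_image_of_injective _ (Sym2.map.injective hf), heF]
          unfold zset
          rw [Finset.mem_biUnion]
          refine ⟨pr F (φ ∘ f), ?_, ?_⟩
          · rw [mem_pairs]
            refine ⟨φ ∘ f, hφ.comp hf, ?_, rfl⟩
            intro a b hab
            rw [top_adj]
            intro hh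
            exact F.ne_of_adj hab ((hφ.comp hf) hh)
          · rw [Finset.mem_image]
            refine ⟨(bd H τ \ E).image (Sym2.map φ), ?_, ?_⟩
            · rw [Finset.mem_powersetCard]
              constructor
              · intro z hz
                rw [Finset.mem_image] at hz
                obtain ⟨z', hz', rfl⟩ := hz
                have hz'' := (Finset.mem_sdiff.mp hz').1
                induction z' using Sym2.ind with
                | _ a b =>
                  rw [mem_bd] at hz''
                  rw [Sym2.map_mk]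
                  apply mem_inc
                  rw [prFst, hτf] at *
                  rcases hz''.2 with h' | h'
                  · left
                    rw [Finset.mem_image] at h' ⊢
                    obtain ⟨c, -, rfl⟩ := h'
                    exact ⟨c, Finset.mem_univ c, rfl⟩
                  · right
                    rw [Finset.mem_image] at h' ⊢
                    obtain ⟨c, -, rfl⟩ := h'
                    exact ⟨c, Finset.mem_univ c, rfl⟩
              · rw [Finset.card_image_of_injective _ hφ2, Finset.card_sdiff_of_subset hEsub,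
                  hs τ hτ, hEcard]
                omega
            · rw [prSnd]
              have h3 : F.edgeFinset.image (Sym2.map (φ ∘ f))
                  = E.image (Sym2.map φ) := by
                rw [hEf, Finset.image_image, Sym2.map_comp]
              rw [h3, ← Finset.image_union, Finset.union_sdiff_of_subset hEsub]
        · rw [Finset.card_image_of_injOn]
          intro τ hτ τ' hτ' heq
          have heq' : bd H τ = bd H τ' := Finset.image_injective hφ2 heq
          by_contra hne
          have hdis := bd_disjoint (hfar τ hτ τ' hτ' hne)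
          rw [heq', Finset.disjoint_self_iff_empty] at hdis
          have := hs τ' hτ'
          rw [hdis, Finset.card_empty] at this
          omega
      · show ((Finset.univ : Finset (Fin n)),
            (D.image (fun τ => (bd H τ).image (Sym2.map φ))).biUnion id) = _
        apply Prod.ext
        · rw [prFst]
          exact (Finset.image_univ_of_surjective (Finite.surjective_of_injective hφ)).symm
        · rw [prSnd, sat_edgeFinset, Finset.biUnion_image, Finset.image_biUnion]
          rfl
    exact (Finset.card_le_card hsub).trans Finset.card_image_le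
  have hZ := card_zset_le (n := n) F s
  have hcc2 : (⊤ : SimpleGraph (Fin n)).copyCount (sat H (D.biUnion id))
      ≤ ((⊤ : SimpleGraph (Fin n)).copyCount F * (v * n).choose s).choose D.card :=
    hcc.trans (Nat.choose_le_choose _ hZ)
  have h2 : 1 ≤ ((((⊤ : SimpleGraph (Fin n)).copyCount F * (v * n).choose s).choose D.card : ℕ) : ℝ)
      * q ^ (D.card * (e + s)) := by
    refine h1.trans ?_
    apply mul_le_mul_of_nonneg_right _ (pow_nonneg hq _)
    exact_mod_cast hcc2
  have h3 := arith_pack _ D.card (e + s) q hq hpos h2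
  refine h3.trans ?_
  have hch : (((v * n).choose s : ℕ) : ℝ) ≤ ((v : ℝ) * n) ^ s / s.factorial := by
    have := Nat.choose_le_pow_div (α := ℝ) s (v * n)
    push_cast at this
    exact this
  have hqs : 0 ≤ q ^ s := pow_nonneg hq s
  have hN : (0 : ℝ) ≤ ((⊤ : SimpleGraph (Fin n)).copyCount F : ℝ) := Nat.cast_nonneg _
  have hqe : 0 ≤ q ^ e := pow_nonneg hq e
  calc 3 * ((((⊤ : SimpleGraph (Fin n)).copyCount F * (v * n).choose s : ℕ)) : ℝ) * q ^ (e + s)
      = 3 * ((⊤ : SimpleGraph (Fin n)).copyCount F : ℝ) * q ^ e
          * ((((v * n).choose s : ℕ) : ℝ) * q ^ s) := by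
        push_cast; rw [pow_add]; ring
    _ ≤ 3 * ((⊤ : SimpleGraph (Fin n)).copyCount F : ℝ) * q ^ e
          * (((v : ℝ) * n) ^ s / s.factorial * q ^ s) := by
        apply mul_le_mul_of_nonneg_left _ (by positivity)
        exact mul_le_mul_of_nonneg_right hch hqs
    _ = 3 * ((⊤ : SimpleGraph (Fin n)).copyCount F : ℝ) * q ^ e *
          (((v : ℝ) * n * q) ^ s / s.factorial) := by
        rw [mul_pow ((v : ℝ) * n) q s]; ring

end Vale.Agent.Helper8.KK
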