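import Vale.Agent.Helper8.KK.Connected
import Vale.Agent.Helper8.KK.Arith2
import Vale.Agent.Helper25.KKPlain
import Vale.Agent.Helper25.KKColour
import Vale.Agent.Helper25.KKInner

/-!
The counting inequality for connected graphs with a constant polynomial in `n q`
(helper8): assembly.
-/

namespace Vale.Agent.Helper8.KK

open Finset SimpleGraph

/-- Vertex sets of copies with excess exactly `s`: the two-colour bound. -/
theorem card_level_le {n v : ℕ} (H : SimpleGraph (Fin n)) (q : ℝ) (hq : 0 ≤ q)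
    (hyp : ∀ F' : SimpleGraph (Fin n), F' ≤ H →
      1 ≤ ((⊤ : SimpleGraph (Fin n)).copyCount F' : ℝ) * q ^ F'.edgeSet.ncard)
    (F : SimpleGraph (Fin v)) (hF : F.Connected) (he : 1 ≤ F.edgeSet.ncard) (s : ℕ)
    (VV : Finset (Finset (Fin n)))
    (hVV : ∀ τ ∈ VV, (∃ E, (τ, E) ∈ pairs H F) ∧ (bd H τ).card = F.edgeSet.ncard + s) :
    (VV.card : ℝ) ≤ 2 ^ (v + s) * (3 * ((⊤ : SimpleGraph (Fin n)).copyCount F : ℝ) *
      q ^ F.edgeSet.ncard * (((v:ℝ) * n * q) ^ s / s.factorial)) := by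
  classical
  apply Vale.Agent.Helper23.KKAveraging.averaging VV (nb H) (v + s)
  · intro τ _
    rw [Finset.disjoint_left]
    intro a ha ha'
    unfold nb at ha'
    rw [Finset.mem_filter] at ha'
    exact ha'.2.1 ha
  · intro τ hτ
    obtain ⟨⟨E, hE⟩, hs⟩ := hVV τ hτ
    have hc : τ.card = v := pairCardFst H F _ hE
    have hnb : (nb H τ).card ≤ s := by
      obtain ⟨f, hf, hhom, hpr⟩ := mem_pairs.mp hE
      have hτf : (pr F f).1 = τ := by rw [hpr]
      have h := card_nb_le H F f hf hhom F.edgeSet.ncard s rfl (by rw [hτf]; exact hs)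
      rw [hτf] at h
      exact h
    omega
  · intro R DD hDD hgood
    apply packing H F q hq hyp F.edgeSet.ncard s rfl he DD
    · intro τ hτ
      exact (hVV τ (hDD hτ)).1
    · intro τ hτ τ' hτ' hne
      obtain ⟨E, hE⟩ := (hVV τ (hDD hτ)).1
      obtain ⟨E', hE'⟩ := (hVV τ' (hDD hτ')).1
      exact far_of_good H F hF R τ τ' E E' hE hE' hne (hgood τ hτ) (hgood τ' hτ')
    · intro τ hτ
      exact (hVV τ (hDD hτ)).2

/-- Vertex sets of copies with excess at most `K v`: the bound from one colouring with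
`K + 1` colours and the plain packing. -/
theorem card_low_le {n v : ℕ} (H : SimpleGraph (Fin n)) (q : ℝ) (hq : 0 ≤ q)
    (hyp : ∀ F' : SimpleGraph (Fin n), F' ≤ H →
      1 ≤ ((⊤ : SimpleGraph (Fin n)).copyCount F' : ℝ) * q ^ F'.edgeSet.ncard)
    (F : SimpleGraph (Fin v)) (hF : F.Connected) (he : 1 ≤ F.edgeSet.ncard) (K : ℕ)
    (hK : 1 ≤ K) (VV : Finset (Finset (Fin n)))
    (hVV : ∀ τ ∈ VV, (∃ E, (τ, E) ∈ pairs H F) ∧
      (bd H τ).card ≤ F.edgeSet.ncard + K * v) :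
    (VV.card : ℝ) ≤ (3 * ((K : ℝ) + 1)) ^ v *
      (3 * ((⊤ : SimpleGraph (Fin n)).copyCount F : ℝ) * q ^ F.edgeSet.ncard) := by
  classical
  have hB0 : (0:ℝ) ≤ 3 * ((⊤ : SimpleGraph (Fin n)).copyCount F : ℝ) * q ^ F.edgeSet.ncard := by
    positivity
  have hdisj : ∀ τ ∈ VV, Disjoint τ (nb H τ) := by
    intro τ _
    rw [Finset.disjoint_left]
    intro a ha ha'
    unfold nb at ha'
    rw [Finset.mem_filter] at ha'
    exact ha'.2.1 ha
  have hv : ∀ τ ∈ VV, τ.card ≤ v := by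
    intro τ hτ
    obtain ⟨⟨E, hE⟩, _⟩ := hVV τ hτ
    exact (pairCardFst H F _ hE).le
  have hs : ∀ τ ∈ VV, (nb H τ).card ≤ K * v := by
    intro τ hτ
    obtain ⟨⟨E, hE⟩, hs⟩ := hVV τ hτ
    have hge : F.edgeSet.ncard ≤ (bd H τ).card := by
      have h := Finset.card_le_card (pairSndSubset H F _ hE)
      rw [pairCardSnd H F _ hE] at h
      exact h
    obtain ⟨f, hf, hhom, hpr⟩ := mem_pairs.mp hE
    have hτf : (pr F f).1 = τ := by rw [hpr]
    have h := card_nb_le H F f hf hhom F.edgeSet.ncard ((bd H τ).card - F.edgeSet.ncard) rfl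
      (by rw [hτf]; omega)
    rw [hτf] at h
    omega
  have hB : ∀ (R : Finset (Fin n)) (DD : Finset (Finset (Fin n))), DD ⊆ VV →
      (∀ τ ∈ DD, τ ⊆ R ∧ Disjoint (nb H τ) R) → (DD.card : ℝ) ≤
        3 * ((⊤ : SimpleGraph (Fin n)).copyCount F : ℝ) * q ^ F.edgeSet.ncard := by
    intro R DD hDD hgood
    apply Vale.Agent.Helper25.KKPlain.packing_plain H F q hq hyp F.edgeSet.ncard rfl he DD
    · intro τ hτ
      exact (hVV τ (hDD hτ)).1
    · intro τ hτ τ' hτ' hne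
      obtain ⟨E, hE⟩ := (hVV τ (hDD hτ)).1
      obtain ⟨E', hE'⟩ := (hVV τ' (hDD hτ')).1
      exact (far_of_good H F hF R τ τ' E E' hE hE' hne (hgood τ hτ) (hgood τ' hτ')).1
  have h := Vale.Agent.Helper25.KKColour.averaging_k (K + 1) (by omega) VV (nb H) v (K * v)
    (3 * ((⊤ : SimpleGraph (Fin n)).copyCount F : ℝ) * q ^ F.edgeSet.ncard) hdisj hv hs hB
  have hr := ratio_pow_le K v hK
  have hKc : (((K + 1 : ℕ) : ℝ)) = (K : ℝ) + 1 := by push_cast; ring
  have hpos : (0:ℝ) ≤ (((K + 1 : ℕ) : ℝ)) ^ v := by positivity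
  calc (VV.card : ℝ)
      ≤ (((K + 1 : ℕ) : ℝ)) ^ v * ((((K + 1 : ℕ) : ℝ)) / ((((K + 1 : ℕ) : ℝ)) - 1)) ^ (K * v) *
          (3 * ((⊤ : SimpleGraph (Fin n)).copyCount F : ℝ) * q ^ F.edgeSet.ncard) := h
    _ ≤ (((K + 1 : ℕ) : ℝ)) ^ v * 3 ^ v *
          (3 * ((⊤ : SimpleGraph (Fin n)).copyCount F : ℝ) * q ^ F.edgeSet.ncard) := by
        apply mul_le_mul_of_nonneg_right _ hB0
        exact mul_le_mul_of_nonneg_left hr hpos
    _ = (3 * ((K : ℝ) + 1)) ^ v *
          (3 * ((⊤ : SimpleGraph (Fin n)).copyCount F : ℝ) * q ^ F.edgeSet.ncard) := by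
        rw [hKc, mul_pow]
        ring

theorem connected_count_poly {n v : ℕ} (H : SimpleGraph (Fin n)) (q : ℝ) (hq : 0 ≤ q)
    (hq1 : q < 1) (hnq : (n:ℝ) * q ^ 2 ≤ 1)
    (hyp : ∀ F' : SimpleGraph (Fin n), F' ≤ H →
      1 ≤ ((⊤ : SimpleGraph (Fin n)).copyCount F' : ℝ) * q ^ F'.edgeSet.ncard)
    (F : SimpleGraph (Fin v)) (hF : F.Connected) (he : 1 ≤ F.edgeSet.ncard) :
    (H.copyCount F : ℝ) ≤ 15 * ((⊤ : SimpleGraph (Fin n)).copyCount F : ℝ) *
      q ^ F.edgeSet.ncard * (96 * (1 + (n:ℝ) * q)) ^ v := by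
  classical
  set e := F.edgeSet.ncard with he_def
  set N : ℝ := ((⊤ : SimpleGraph (Fin n)).copyCount F : ℝ) with hN_def
  set P := pairs H F with hP_def
  set VS := P.image Prod.fst with hVS_def
  set M := H.edgeFinset.card + 1 with hM_def
  set K := ⌈8 * ((n:ℝ) * q)⌉₊ + 1 with hK_def
  have hN0 : (0:ℝ) ≤ N := Nat.cast_nonneg _
  have hnq0 : (0:ℝ) ≤ (n:ℝ) * q := by positivity
  have hK1 : 1 ≤ K := by omega
  have hK8 : 8 * ((n:ℝ) * q) ≤ (K : ℝ) := by
    have h := Nat.le_ceil (8 * ((n:ℝ) * q))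
    rw [hK_def]
    push_cast
    linarith
  have hKb : (K : ℝ) + 1 ≤ 8 * (1 + (n:ℝ) * q) :=
    ceil_bound ((n:ℝ) * q) hnq0
  have h1 : (H.copyCount F : ℝ) ≤ (P.card : ℝ) := by
    exact_mod_cast copyCount_le_card_pairs H F
  have h2 : P.card = ∑ τ ∈ VS, (P.filter (fun x => x.1 = τ)).card :=
    Finset.card_eq_sum_card_image Prod.fst P
  have hVS : ∀ τ ∈ VS, ∃ E, (τ, E) ∈ pairs H F := by
    intro τ hτ
    rw [hVS_def, Finset.mem_image] at hτ
    obtain ⟨x, hx, rfl⟩ := hτ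
    exact ⟨x.2, hx⟩
  have hqn : q ^ 2 * (n:ℝ) ≤ 1 := by rw [mul_comm]; exact hnq
  have h3 : ∀ τ ∈ VS, (P.filter (fun x => x.1 = τ)).card ≤ 4 ^ v := by
    intro τ hτ
    obtain ⟨E, hE⟩ := hVS τ hτ
    have hc : τ.card = v := pairCardFst H F _ hE
    have h := Vale.Agent.Helper25.KKInner.card_fiber_le_four_pow H q hq hq1 hqn hyp F τ
      (P.filter (fun x => x.1 = τ)) (by
        intro x hx
        rw [Finset.mem_filter] at hx
        exact hx)
    rw [hc] at h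
    exact h
  have h4 : (P.card : ℝ) ≤ 4 ^ v * (VS.card : ℝ) := by
    rw [h2]
    push_cast
    calc ∑ τ ∈ VS, ((P.filter (fun x => x.1 = τ)).card : ℝ)
        ≤ ∑ τ ∈ VS, (4:ℝ) ^ v := by
          apply Finset.sum_le_sum
          intro τ hτ
          exact_mod_cast h3 τ hτ
      _ = 4 ^ v * (VS.card : ℝ) := by
          rw [Finset.sum_const, nsmul_eq_mul]
          ring
  have hbd_ge : ∀ τ ∈ VS, e ≤ (bd H τ).card := by
    intro τ hτ
    obtain ⟨E, hE⟩ := hVS τ hτ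
    have h := Finset.card_le_card (pairSndSubset H F _ hE)
    rw [pairCardSnd H F _ hE] at h
    exact h
  have hbd_le : ∀ τ, (bd H τ).card < M := by
    intro τ
    have h : (bd H τ).card ≤ H.edgeFinset.card := by
      apply Finset.card_le_card
      unfold bd
      exact Finset.filter_subset _ _
    omega
  set Vs : ℕ → Finset (Finset (Fin n)) :=
    fun s => VS.filter (fun τ => (bd H τ).card = e + s) with hVs_def
  set VL : Finset (Finset (Fin n)) :=
    VS.filter (fun τ => (bd H τ).card ≤ e + K * v) with hVL_def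
  set SS : Finset ℕ := (range M).filter (fun s => K * v < s) with hSS_def
  have hsub : VS ⊆ VL ∪ SS.biUnion Vs := by
    intro τ hτ
    by_cases hlow : (bd H τ).card ≤ e + K * v
    · exact Finset.mem_union_left _ (Finset.mem_filter.mpr ⟨hτ, hlow⟩)
    · apply Finset.mem_union_right
      rw [Finset.mem_biUnion]
      have h1 := hbd_ge τ hτ
      have h2 := hbd_le τ
      refine ⟨(bd H τ).card - e, ?_, ?_⟩
      · rw [hSS_def, Finset.mem_filter, Finset.mem_range]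
        constructor <;> omega
      · rw [hVs_def, Finset.mem_filter]
        exact ⟨hτ, by omega⟩
  have hcard : (VS.card : ℝ) ≤ (VL.card : ℝ) + ∑ s ∈ SS, ((Vs s).card : ℝ) := by
    have h := (Finset.card_le_card hsub).trans (Finset.card_union_le _ _)
    have h' := h.trans (Nat.add_le_add_left Finset.card_biUnion_le _)
    exact_mod_cast h'
  have hlow : (VL.card : ℝ) ≤ (3 * ((K : ℝ) + 1)) ^ v * (3 * N * q ^ e) := by
    apply card_low_le H q hq hyp F hF he K hK1 VL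
    intro τ hτ
    rw [hVL_def, Finset.mem_filter] at hτ
    exact ⟨hVS τ hτ.1, hτ.2⟩
  have hlev : ∀ s ∈ SS, ((Vs s).card : ℝ) ≤ 3 * N * q ^ e * (2 ^ v * (3/4:ℝ) ^ s) := by
    intro s hs
    rw [hSS_def, Finset.mem_filter] at hs
    have h := card_level_le H q hq hyp F hF he s (Vs s) (by
      intro τ hτ
      rw [hVs_def, Finset.mem_filter] at hτ
      exact ⟨hVS τ hτ.1, hτ.2⟩)
    have ht := tail_term v n s K q hq hK8 hs.2
    have hc : (0:ℝ) ≤ 3 * N * q ^ e := by positivity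
    calc ((Vs s).card : ℝ)
        ≤ 2 ^ (v + s) * (3 * N * q ^ e * (((v:ℝ) * n * q) ^ s / s.factorial)) := h
      _ = 3 * N * q ^ e * (2 ^ (v + s) * (((v:ℝ) * n * q) ^ s / s.factorial)) := by ring
      _ ≤ 3 * N * q ^ e * (2 ^ v * (3/4:ℝ) ^ s) := mul_le_mul_of_nonneg_left ht hc
  have htail : ∑ s ∈ SS, ((Vs s).card : ℝ) ≤ 3 * N * q ^ e * (2 ^ v * 4) := by
    have hc : (0:ℝ) ≤ 3 * N * q ^ e * 2 ^ v := by positivity
    calc ∑ s ∈ SS, ((Vs s).card : ℝ)
        ≤ ∑ s ∈ SS, 3 * N * q ^ e * (2 ^ v * (3/4:ℝ) ^ s) := Finset.sum_le_sum hlev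
      _ = 3 * N * q ^ e * 2 ^ v * ∑ s ∈ SS, (3/4:ℝ) ^ s := by
          rw [Finset.mul_sum]
          apply Finset.sum_congr rfl
          intro s _
          ring
      _ ≤ 3 * N * q ^ e * 2 ^ v * ∑ s ∈ range M, (3/4:ℝ) ^ s := by
          apply mul_le_mul_of_nonneg_left _ hc
          apply Finset.sum_le_sum_of_subset_of_nonneg (Finset.filter_subset _ _)
          intro s _ _
          positivity
      _ ≤ 3 * N * q ^ e * 2 ^ v * 4 :=
          mul_le_mul_of_nonneg_left (tail_sum M) hc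
      _ = 3 * N * q ^ e * (2 ^ v * 4) := by ring
  have hK2 : (2:ℝ) ≤ (K : ℝ) + 1 := by
    have : (1:ℝ) ≤ (K : ℝ) := by exact_mod_cast hK1
    linarith
  have h8 : (8:ℝ) ^ v ≤ (12 * ((K : ℝ) + 1)) ^ v :=
    pow_le_pow_left₀ (by norm_num) (by linarith) v
  have h12 : (12 * ((K : ℝ) + 1)) ^ v ≤ (96 * (1 + (n:ℝ) * q)) ^ v :=
    pow_le_pow_left₀ (by linarith) (by linarith) v
  have hc : (0:ℝ) ≤ N * q ^ e := by positivity
  calc (H.copyCount F : ℝ) ≤ (P.card : ℝ) := h1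
    _ ≤ 4 ^ v * (VS.card : ℝ) := h4
    _ ≤ 4 ^ v * ((3 * ((K : ℝ) + 1)) ^ v * (3 * N * q ^ e) + 3 * N * q ^ e * (2 ^ v * 4)) := by
        apply mul_le_mul_of_nonneg_left _ (by positivity)
        exact hcard.trans (add_le_add hlow htail)
    _ = N * q ^ e * (3 * (12 * ((K : ℝ) + 1)) ^ v + 12 * 8 ^ v) := by
        have e1 : (12 * ((K : ℝ) + 1)) ^ v = 4 ^ v * (3 * ((K : ℝ) + 1)) ^ v := by
          rw [← mul_pow]
          congr 1
          ring
        have e2 : (8:ℝ) ^ v = 4 ^ v * 2 ^ v := by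
          rw [← mul_pow]
          norm_num
        rw [e1, e2]
        ring
    _ ≤ N * q ^ e * (15 * (96 * (1 + (n:ℝ) * q)) ^ v) := by
        apply mul_le_mul_of_nonneg_left _ hc
        linarith
    _ = 15 * N * q ^ e * (96 * (1 + (n:ℝ) * q)) ^ v := by ring

end Vale.Agent.Helper8.KK
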